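import Crest.Agent.R82.Setup

set_option autoImplicit false
set_option linter.unusedSectionVars false

namespace Crest.Agent.R82

open MeasureTheory Set Filter Topology
open scoped RealInnerProductSpace

variable {E : Type*} [NormedAddCommGroup E] [InnerProductSpace ℝ E] [MeasurableSpace E]
  [OpensMeasurableSpace E] {ρ : Measure E} {K : Set E} {R : ℝ}

/-- Gaussian weight -/
noncomputable def gw (κ : ℝ) (x : E) : ℝ := Real.exp (-(κ * ‖x‖ ^ 2 / 2))

lemma gw_pos (κ : ℝ) (x : E) : 0 < gw κ x := Real.exp_pos _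

@[fun_prop]
lemma continuous_gw (κ : ℝ) : Continuous (gw κ : E → ℝ) := by unfold gw; fun_prop

lemma norm_mid_sq (x y : E) : ‖x‖ ^ 2 + ‖y‖ ^ 2 = 2 * ‖mid x y‖ ^ 2 + ‖x - y‖ ^ 2 / 2 := by
  have h : mid x y = (1 / 2 : ℝ) • (x + y) := by rw [mid, smul_add]
  have := parallelogram_law_with_norm ℝ x y
  rw [h, norm_smul]
  simp only [Real.norm_eq_abs, abs_of_pos (show (0 : ℝ) < 1 / 2 by norm_num)]
  nlinarith

lemma tilt (S : Setup ρ K R) {κ : ℝ} (hκ : 0 < κ) {w w' w'' u : E → ℝ} (hw : Continuous w)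
    (hw' : Continuous w') (hw'' : Continuous w'') (hu : Continuous u) (w0 : ∀ x, 0 < w x)
    (w0' : ∀ x, 0 < w' x) (w0'' : ∀ x, 0 < w'' x)
    (hmid : ∀ x ∈ K, ∀ y ∈ K, w x * w' y ≤ w'' (mid x y) ^ 2) {L : ℝ}
    (hL : ∀ x ∈ K, ∀ y ∈ K, u x - u y ≤ L * ‖x - y‖) :
    √(∫ x, w x * gw κ x ∂ρ) * √(∫ x, w' x * gw κ x ∂ρ) *
      (1 + ((∫ x, w x * gw κ x * u x ∂ρ) / (∫ x, w x * gw κ x ∂ρ) -
        (∫ x, w' x * gw κ x * u x ∂ρ) / (∫ x, w' x * gw κ x ∂ρ) - L ^ 2 / κ) / 2) ≤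
      ∫ x, w'' x * gw κ x ∂ρ := by
  set A := ∫ x, w x * gw κ x ∂ρ with hA
  set A' := ∫ x, w' x * gw κ x ∂ρ with hA'
  set A'' := ∫ x, w'' x * gw κ x ∂ρ with hA''
  have A0 : 0 < A := S.pos (by fun_prop) fun x => mul_pos (w0 x) (gw_pos _ _)
  have A0' : 0 < A' := S.pos (by fun_prop) fun x => mul_pos (w0' x) (gw_pos _ _)
  have A0'' : 0 < A'' := S.pos (by fun_prop) fun x => mul_pos (w0'' x) (gw_pos _ _)
  set c := (∫ x, w x * gw κ x * u x ∂ρ) / A with hc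
  set c' := (∫ x, w' x * gw κ x * u x ∂ρ) / A' with hc'
  set t := (c - c' - L ^ 2 / κ) / 2 with ht
  have key := S.pl (fun x => w x * gw κ x * Real.exp (u x - c))
    (fun x => w' x * gw κ x * Real.exp (-(u x - c')))
    (fun x => w'' x * gw κ x * Real.exp (-t)) (by fun_prop) (by fun_prop) (by fun_prop)
    (fun x => by have := w0 x; have := gw_pos κ x; positivity)
    (fun x => by have := w0' x; have := gw_pos κ x; positivity)
    (fun x => by have := w0'' x; have := gw_pos κ x; positivity)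
    (fun x hx y hy => by
      have h1 := hmid x hx y hy
      have h2 : gw κ x * Real.exp (u x - c) * (gw κ y * Real.exp (-(u y - c'))) ≤
          (gw κ (mid x y) * Real.exp (-t)) ^ 2 := by
        simp only [gw, ← Real.exp_add, sq]
        apply Real.exp_le_exp.2
        have e1 := norm_mid_sq x y
        have e2 := hL x hx y hy
        have e3 : L * ‖x - y‖ ≤ κ * ‖x - y‖ ^ 2 / 4 + L ^ 2 / κ := by
          have : 0 ≤ (κ * ‖x - y‖ / 2 - L) ^ 2 / κ := by positivity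
          have e : (κ * ‖x - y‖ / 2 - L) ^ 2 / κ =
              κ * ‖x - y‖ ^ 2 / 4 + L ^ 2 / κ - L * ‖x - y‖ := by field_simp; ring
          linarith
        have e4 := congrArg (fun z => κ * z) e1
        simp only [ht]
        nlinarith
      calc w x * gw κ x * Real.exp (u x - c) * (w' y * gw κ y * Real.exp (-(u y - c')))
          = (w x * w' y) * (gw κ x * Real.exp (u x - c) * (gw κ y * Real.exp (-(u y - c')))) := by
            ring
        _ ≤ w'' (mid x y) ^ 2 * (gw κ (mid x y) * Real.exp (-t)) ^ 2 := by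
            apply mul_le_mul h1 h2 _ (by positivity)
            have := gw_pos κ x; have := gw_pos κ y; positivity
        _ = _ := by ring)
  have l1 : A ≤ ∫ x, w x * gw κ x * Real.exp (u x - c) ∂ρ := by
    have e : ∫ x, (w x * gw κ x * u x + (1 - c) * (w x * gw κ x)) ∂ρ = A := by
      rw [S.add (by fun_prop) (by fun_prop), integral_const_mul, ← hA, hc]
      field_simp; ring
    rw [← e]
    refine S.mono (by fun_prop) (by fun_prop) fun x _ => ?_
    have := mul_le_mul_of_nonneg_left (Real.add_one_le_exp (u x - c))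
      (mul_pos (w0 x) (gw_pos κ x)).le
    linarith
  have l2 : A' ≤ ∫ x, w' x * gw κ x * Real.exp (-(u x - c')) ∂ρ := by
    have e : ∫ x, ((1 + c') * (w' x * gw κ x) - w' x * gw κ x * u x) ∂ρ = A' := by
      rw [S.sub (by fun_prop) (by fun_prop), integral_const_mul, ← hA', hc']
      field_simp; ring
    rw [← e]
    refine S.mono (by fun_prop) (by fun_prop) fun x _ => ?_
    have := mul_le_mul_of_nonneg_left (Real.add_one_le_exp (-(u x - c')))
      (mul_pos (w0' x) (gw_pos κ x)).le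
    linarith
  rw [integral_mul_const, ← hA''] at key
  have l3 : A * A' ≤ (A'' * Real.exp (-t)) ^ 2 :=
    (mul_le_mul l1 l2 A0'.le (A0.le.trans l1)).trans key
  have l4 : √A * √A' ≤ A'' * Real.exp (-t) := by
    rw [← Real.sqrt_mul A0.le]
    exact Real.sqrt_le_iff.2 ⟨by positivity, l3⟩
  calc √A * √A' * (1 + t) ≤ √A * √A' * Real.exp t := by
        gcongr; linarith [Real.add_one_le_exp t]
    _ ≤ A'' * Real.exp (-t) * Real.exp t := by gcongr
    _ = A'' := by rw [mul_assoc, ← Real.exp_add]; simp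

/-- Three families of soft cells related by the midpoint inequality. -/
structure Cells (K : Set E) {I : Type*} [Fintype I] (w w' w'' : I → E → ℝ) : Prop where
  cont : ∀ i, Continuous (w i)
  cont' : ∀ i, Continuous (w' i)
  cont'' : ∀ i, Continuous (w'' i)
  pos : ∀ i x, 0 < w i x
  pos' : ∀ i x, 0 < w' i x
  pos'' : ∀ i x, 0 < w'' i x
  sum : ∀ x, ∑ i, w i x = 1
  sum' : ∀ x, ∑ i, w' i x = 1
  sum'' : ∀ x, ∑ i, w'' i x = 1
  hmid : ∀ i, ∀ x ∈ K, ∀ y ∈ K, w i x * w' i y ≤ w'' i (mid x y) ^ 2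

lemma sum_mass (S : Setup ρ K R) {I : Type*} [Fintype I] {w : I → E → ℝ}
    (hc : ∀ i, Continuous (w i)) (hs : ∀ x, ∑ i, w i x = 1) {f : E → ℝ} (hf : Continuous f) :
    ∑ i, ∫ x, w i x * f x ∂ρ = ∫ x, f x ∂ρ := by
  rw [← S.sum (f := fun i x => w i x * f x) (fun i => (hc i).mul hf)]
  simp only [← Finset.sum_mul, hs, one_mul]

lemma tilt_sum (S : Setup ρ K R) {κ : ℝ} (hκ : 0 < κ) {I : Type*} [Fintype I]
    {w w' w'' : I → E → ℝ} (C : Cells K w w' w'') {u : I → E → ℝ} (hu : ∀ i, Continuous (u i))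
    {L : I → ℝ} (hL : ∀ i, ∀ x ∈ K, ∀ y ∈ K, u i x - u i y ≤ L i * ‖x - y‖) :
    ∑ i, √(∫ x, w i x * gw κ x ∂ρ) * √(∫ x, w' i x * gw κ x ∂ρ) *
      ((∫ x, w i x * gw κ x * u i x ∂ρ) / (∫ x, w i x * gw κ x ∂ρ) -
        (∫ x, w' i x * gw κ x * u i x ∂ρ) / (∫ x, w' i x * gw κ x ∂ρ) - L i ^ 2 / κ) ≤
      ∑ i, (√(∫ x, w i x * gw κ x ∂ρ) - √(∫ x, w' i x * gw κ x ∂ρ)) ^ 2 := by
  have h := Finset.sum_le_sum fun i (_ : i ∈ Finset.univ) => tilt S hκ (C.cont i) (C.cont' i)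
    (C.cont'' i) (hu i) (C.pos i) (C.pos' i) (C.pos'' i) (C.hmid i) (hL i)
  rw [sum_mass S C.cont'' C.sum'' (continuous_gw κ)] at h
  have e1 := sum_mass S C.cont C.sum (continuous_gw κ)
  have e2 := sum_mass S C.cont' C.sum' (continuous_gw κ)
  have p1 : ∀ i, 0 ≤ ∫ x, w i x * gw κ x ∂ρ := fun i =>
    integral_nonneg fun x => (mul_pos (C.pos i x) (gw_pos _ _)).le
  have p2 : ∀ i, 0 ≤ ∫ x, w' i x * gw κ x ∂ρ := fun i =>
    integral_nonneg fun x => (mul_pos (C.pos' i x) (gw_pos _ _)).le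
  have e3 : ∑ i, (√(∫ x, w i x * gw κ x ∂ρ) - √(∫ x, w' i x * gw κ x ∂ρ)) ^ 2 =
      ∑ i, (∫ x, w i x * gw κ x ∂ρ) + ∑ i, (∫ x, w' i x * gw κ x ∂ρ) -
        2 * ∑ i, √(∫ x, w i x * gw κ x ∂ρ) * √(∫ x, w' i x * gw κ x ∂ρ) := by
    rw [Finset.mul_sum, ← Finset.sum_add_distrib, ← Finset.sum_sub_distrib]
    refine Finset.sum_congr rfl fun i _ => ?_
    rw [sub_sq, Real.sq_sqrt (p1 i), Real.sq_sqrt (p2 i)]; ring
  rw [e3, e1, e2]
  simp only [mul_add, mul_one, Finset.sum_add_distrib, ← mul_div_assoc, ← Finset.sum_div] at h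
  linarith

lemma gw_inv_bounds (hR : 0 < R) {x : E} (hx : ‖x‖ ≤ R) :
    1 ≤ (gw (1 / (32 * R ^ 2)) x)⁻¹ ∧ (gw (1 / (32 * R ^ 2)) x)⁻¹ ≤ 2 := by
  rw [gw, ← Real.exp_neg, neg_neg]
  constructor
  · exact Real.one_le_exp (by positivity)
  · have h1 : 1 / (32 * R ^ 2) * ‖x‖ ^ 2 / 2 ≤ 1 / 2 := by
      have : ‖x‖ ^ 2 ≤ R ^ 2 := by gcongr
      rw [div_le_div_iff_of_pos_right two_pos, one_div, inv_mul_le_iff₀ (by positivity)]
      nlinarith [sq_nonneg R]
    refine (Real.exp_le_exp.2 h1).trans ?_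
    have := Real.exp_one_lt_d9
    have h2 : Real.exp (1 / 2) ^ 2 = Real.exp 1 := by rw [sq, ← Real.exp_add]; norm_num
    nlinarith [Real.exp_pos (1 / 2)]

lemma gw_inv_lip (hR : 0 < R) {x y : E} (hx : ‖x‖ ≤ R) (hy : ‖y‖ ≤ R) :
    |(gw (1 / (32 * R ^ 2)) x)⁻¹ - (gw (1 / (32 * R ^ 2)) y)⁻¹| ≤ 1 / (16 * R) * ‖x - y‖ := by
  have key : ∀ x y : E, ‖x‖ ≤ R → ‖y‖ ≤ R →
      (gw (1 / (32 * R ^ 2)) x)⁻¹ - (gw (1 / (32 * R ^ 2)) y)⁻¹ ≤ 1 / (16 * R) * ‖x - y‖ := by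
    intro x y hx hy
    have hb := (gw_inv_bounds hR hx).2
    rw [gw, ← Real.exp_neg, neg_neg] at hb ⊢
    rw [gw, ← Real.exp_neg, neg_neg]
    set a := 1 / (32 * R ^ 2) * ‖x‖ ^ 2 / 2 with ha
    set b := 1 / (32 * R ^ 2) * ‖y‖ ^ 2 / 2 with hb'
    have h1 : Real.exp a - Real.exp b ≤ Real.exp a * (a - b) := by
      have := mul_le_mul_of_nonneg_left (Real.add_one_le_exp (b - a)) (Real.exp_pos a).le
      rw [← Real.exp_add, add_sub_cancel] at this
      linarith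
    have h2 : a - b ≤ 1 / (32 * R) * ‖x - y‖ := by
      have e : a - b = 1 / (64 * R ^ 2) * ((‖x‖ - ‖y‖) * (‖x‖ + ‖y‖)) := by
        rw [ha, hb']; field_simp; ring
      have h3 : (‖x‖ - ‖y‖) * (‖x‖ + ‖y‖) ≤ ‖x - y‖ * (2 * R) :=
        mul_le_mul (norm_sub_norm_le x y) (by linarith) (by positivity) (by positivity)
      rw [e]
      calc 1 / (64 * R ^ 2) * ((‖x‖ - ‖y‖) * (‖x‖ + ‖y‖))
          ≤ 1 / (64 * R ^ 2) * (‖x - y‖ * (2 * R)) := by gcongr
        _ = _ := by field_simp; ring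
    calc Real.exp a - Real.exp b ≤ Real.exp a * (a - b) := h1
      _ ≤ Real.exp a * (1 / (32 * R) * ‖x - y‖) := by gcongr
      _ ≤ 2 * (1 / (32 * R) * ‖x - y‖) := by gcongr
      _ = _ := by field_simp; ring
  rw [abs_le]
  constructor
  · have := key y x hy hx
    rw [norm_sub_rev] at this
    linarith
  · exact key x y hx hy

lemma cs_weight (S : Setup ρ K R) {w g : E → ℝ} (hw : Continuous w) (hg : Continuous g)
    (w0 : ∀ x, 0 < w x) :
    (∫ x, w x * g x ∂ρ) ^ 2 ≤ (∫ x, w x ∂ρ) * ∫ x, w x * g x ^ 2 ∂ρ := by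
  have a0 : 0 < ∫ x, w x ∂ρ := S.pos hw w0
  set a := ∫ x, w x ∂ρ with ha
  set G := ∫ x, w x * g x ∂ρ with hG
  have h : 0 ≤ ∫ x, w x * (a * g x - G) ^ 2 ∂ρ :=
    integral_nonneg fun x => mul_nonneg (w0 x).le (sq_nonneg _)
  have e : ∫ x, w x * (a * g x - G) ^ 2 ∂ρ =
      a ^ 2 * (∫ x, w x * g x ^ 2 ∂ρ) - 2 * a * G * G + G ^ 2 * a := by
    have e0 : ∀ x, w x * (a * g x - G) ^ 2 =
        a ^ 2 * (w x * g x ^ 2) - 2 * a * G * (w x * g x) + G ^ 2 * w x := fun x => by ring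
    simp only [e0]
    rw [S.add (by fun_prop) (by fun_prop), S.sub (by fun_prop) (by fun_prop), integral_const_mul,
      integral_const_mul, integral_const_mul]
  rw [e] at h
  nlinarith

lemma avg_ge (S : Setup ρ K R) {w u : E → ℝ} (hw : Continuous w) (hu : Continuous u)
    (w0 : ∀ x, 0 < w x) {c : ℝ} (hc : ∀ x ∈ K, c ≤ u x) :
    c ≤ (∫ x, w x * u x ∂ρ) / ∫ x, w x ∂ρ := by
  rw [le_div_iff₀ (S.pos hw w0), ← integral_const_mul]
  refine S.mono (by fun_prop) (by fun_prop) fun x hx => ?_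
  rw [mul_comm]; exact mul_le_mul_of_nonneg_left (hc x hx) (w0 x).le

lemma avg_abs_le (S : Setup ρ K R) {w u : E → ℝ} (hw : Continuous w) (hu : Continuous u)
    (w0 : ∀ x, 0 < w x) {c : ℝ} (hc : ∀ x ∈ K, |u x| ≤ c) :
    |(∫ x, w x * u x ∂ρ) / ∫ x, w x ∂ρ| ≤ c := by
  rw [abs_le]
  refine ⟨avg_ge S hw hu w0 fun x hx => (abs_le.1 (hc x hx)).1, ?_⟩
  have := avg_ge S hw (u := fun x => -u x) hu.neg w0 (c := -c) fun x hx => by
    linarith [(abs_le.1 (hc x hx)).2]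
  simp only [mul_neg, integral_neg, neg_div] at this
  linarith

/-- The Hellinger distance of the Gaussian masses is controlled by the change of the density. -/
lemma hell_bound (S : Setup ρ K R) {I : Type*} [Fintype I]
    {w w' w'' : I → E → ℝ} (C : Cells K w w' w'') {g : E → ℝ} (hg : Continuous g) {s : ℝ}
    (hm : ∀ i, ∫ x, w i x ∂ρ = ∫ x, w' i x * (1 + s * g x) ∂ρ) :
    ∑ i, (√(∫ x, w i x * gw (1 / (32 * R ^ 2)) x ∂ρ) -
      √(∫ x, w' i x * gw (1 / (32 * R ^ 2)) x ∂ρ)) ^ 2 ≤ 6 * s ^ 2 * ∫ x, g x ^ 2 ∂ρ := by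
  have hR := S.R_pos
  set κ := 1 / (32 * R ^ 2) with hκ
  have κ0 : 0 < κ := by positivity
  have cw := C.cont
  have cw' := C.cont'
  have cG : Continuous fun x : E => (gw κ x)⁻¹ :=
    (continuous_gw κ).inv₀ fun x => (gw_pos _ _).ne'
  set A : I → ℝ := fun i => ∫ x, w i x * gw κ x ∂ρ with hA
  set A' : I → ℝ := fun i => ∫ x, w' i x * gw κ x ∂ρ with hA'
  have A0 : ∀ i, 0 < A i := fun i => S.pos (by fun_prop) fun x => mul_pos (C.pos i x) (gw_pos _ _)
  have A0' : ∀ i, 0 < A' i := fun i =>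
    S.pos (by fun_prop) fun x => mul_pos (C.pos' i x) (gw_pos _ _)
  set a : I → ℝ := fun i => ∫ x, w i x ∂ρ with ha
  set a' : I → ℝ := fun i => ∫ x, w' i x ∂ρ with ha'
  set Δ : I → ℝ := fun i => a i / A i - a' i / A' i with hΔ
  have hcanc : ∀ (f : E → ℝ) (c : ℝ), ∫ x, f x * gw κ x * (c * (gw κ x)⁻¹) ∂ρ = c * ∫ x, f x ∂ρ := by
    intro f c
    rw [← integral_const_mul]
    congr 1; ext x
    have := (gw_pos κ x).ne'
    field_simp
  have h1 := tilt_sum S κ0 C (u := fun i x => 4 * Δ i * (gw κ x)⁻¹) (fun i => by fun_prop)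
    (L := fun i => 4 * |Δ i| * (1 / (16 * R))) (fun i x hx y hy => by
      rw [← mul_sub]
      refine (le_abs_self _).trans ?_
      rw [abs_mul, abs_mul, abs_of_pos (show (0 : ℝ) < 4 by norm_num), mul_assoc (4 * |Δ i|)]
      gcongr
      exact gw_inv_lip hR (S.bdd x hx) (S.bdd y hy))
  simp only [hcanc] at h1
  set H := ∑ i, (√(A i) - √(A' i)) ^ 2 with hH
  have h2 : ∑ i, √(A i) * √(A' i) * (2 * Δ i ^ 2) ≤ H := by
    refine le_trans (le_of_eq (Finset.sum_congr rfl fun i _ => ?_)) h1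
    congr 1
    change _ = 4 * Δ i * a i / A i - 4 * Δ i * a' i / A' i - _
    rw [mul_pow, mul_pow, sq_abs, mul_div_assoc, mul_div_assoc, ← mul_sub]
    change _ = 4 * Δ i * Δ i - _
    rw [hκ]; field_simp; ring
  have h3 : ∀ i, (√(A i) - √(A' i)) ^ 2 ≤ 4 * s ^ 2 * (∫ x, w' i x * g x ^ 2 ∂ρ) +
      √(A i) * √(A' i) * (2 * Δ i ^ 2) / 4 := by
    intro i
    set G := ∫ x, w' i x * g x ∂ρ with hG
    have e1 : a i = a' i + s * G := by
      simp only [ha, ha', hm i, mul_add, mul_one]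
      rw [S.add (by fun_prop) (by fun_prop), hG, ← integral_const_mul]
      congr 2; ext x; ring
    have hE : 1 ≤ a i / A i := by
      have := avg_ge S (w := fun x => w i x * gw κ x) (u := fun x => 1 * (gw κ x)⁻¹) (by fun_prop)
        (by fun_prop) (fun x => mul_pos (C.pos i x) (gw_pos _ _)) (c := 1)
        (fun x hx => by rw [one_mul]; exact (gw_inv_bounds hR (S.bdd x hx)).1)
      rwa [hcanc, one_mul] at this
    have hE' : 1 ≤ a' i / A' i := by
      have := avg_ge S (w := fun x => w' i x * gw κ x) (u := fun x => 1 * (gw κ x)⁻¹) (by fun_prop)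
        (by fun_prop) (fun x => mul_pos (C.pos' i x) (gw_pos _ _)) (c := 1)
        (fun x hx => by rw [one_mul]; exact (gw_inv_bounds hR (S.bdd x hx)).1)
      rwa [hcanc, one_mul] at this
    have hE2 : a' i ≤ 2 * A' i := by
      have := avg_abs_le S (w := fun x => w' i x * gw κ x) (u := fun x => 1 * (gw κ x)⁻¹)
        (by fun_prop) (by fun_prop) (fun x => mul_pos (C.pos' i x) (gw_pos _ _)) (c := 2)
        (fun x hx => by
          rw [one_mul, abs_of_pos (inv_pos.2 (gw_pos _ _))]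
          exact (gw_inv_bounds hR (S.bdd x hx)).2)
      rw [hcanc, one_mul] at this
      exact (div_le_iff₀ (A0' i)).1 (abs_le.1 this).2
    have hcs : G ^ 2 ≤ a' i * ∫ x, w' i x * g x ^ 2 ∂ρ := cs_weight S (cw' i) hg (C.pos' i)
    have hq : 0 ≤ ∫ x, w' i x * g x ^ 2 ∂ρ :=
      integral_nonneg fun x => mul_nonneg (C.pos' i x).le (sq_nonneg _)
    set Q := ∫ x, w' i x * g x ^ 2 ∂ρ
    set α := √(A i) with hα
    set α' := √(A' i) with hα'
    have α0 : 0 < α := Real.sqrt_pos.2 (A0 i)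
    have α0' : 0 < α' := Real.sqrt_pos.2 (A0' i)
    have eα : A i = α ^ 2 := (Real.sq_sqrt (A0 i).le).symm
    have eα' : A' i = α' ^ 2 := (Real.sq_sqrt (A0' i).le).symm
    set E1 := a i / A i with hE1
    set E2 := a' i / A' i with hE2'
    have f1 : a i = α ^ 2 * E1 := by rw [hE1, ← eα]; field_simp [(A0 i).ne']
    have f2 : a' i = α' ^ 2 * E2 := by rw [hE2', ← eα']; field_simp [(A0' i).ne']
    have f3 : Δ i = E1 - E2 := rfl
    have id1 : (α - α') * (α * E1 + α' * E2) = s * G - α * α' * Δ i := by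
      rw [f3]; linear_combination e1 - f1 + f2
    have b1 : (α - α') ^ 2 * (α + α') ^ 2 ≤ (s * G - α * α' * Δ i) ^ 2 := by
      rw [← id1, mul_pow]
      gcongr
      · nlinarith
      · nlinarith
    have b2 : (s * G - α * α' * Δ i) ^ 2 ≤ 2 * s ^ 2 * G ^ 2 + 2 * (α * α' * Δ i) ^ 2 := by
      nlinarith [sq_nonneg (s * G + α * α' * Δ i)]
    have b3 : G ^ 2 ≤ 2 * (α + α') ^ 2 * Q := by
      refine hcs.trans ?_
      gcongr
      nlinarith
    have b4 : 2 * (α * α' * Δ i) ^ 2 ≤ (α * α' * (2 * Δ i ^ 2) / 4) * (α + α') ^ 2 := by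
      have : 4 * (α * α') ≤ (α + α') ^ 2 := by nlinarith [sq_nonneg (α - α')]
      have h5 : 0 ≤ α * α' * (2 * Δ i ^ 2) / 4 := by positivity
      nlinarith [mul_le_mul_of_nonneg_left this h5]
    have b5 : (α - α') ^ 2 * (α + α') ^ 2 ≤
        (4 * s ^ 2 * Q + α * α' * (2 * Δ i ^ 2) / 4) * (α + α') ^ 2 := by
      have := mul_le_mul_of_nonneg_left b3 (show 0 ≤ 2 * s ^ 2 by positivity)
      nlinarith
    exact le_of_mul_le_mul_right b5 (by positivity)
  have h4 := Finset.sum_le_sum fun i (_ : i ∈ Finset.univ) => h3 i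
  rw [Finset.sum_add_distrib, ← Finset.mul_sum, ← Finset.sum_div,
    sum_mass S C.cont' C.sum' (f := fun x => g x ^ 2) (by fun_prop), ← hH] at h4
  have h5 : 0 ≤ s ^ 2 * ∫ x, g x ^ 2 ∂ρ :=
    mul_nonneg (sq_nonneg _) (integral_nonneg fun x => sq_nonneg _)
  change H ≤ _
  linarith

/-- Stability of the first moments of the cells. -/
lemma bary_stab (S : Setup ρ K R) {I : Type*} [Fintype I]
    {w w' w'' : I → E → ℝ} (C : Cells K w w' w'') {g : E → ℝ} (hg : Continuous g) {s : ℝ}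
    (hs : 0 < s) (hsg : ∀ x ∈ K, |s * g x| ≤ 1 / 2)
    (hm : ∀ i, ∫ x, w i x ∂ρ = ∫ x, w' i x * (1 + s * g x) ∂ρ) (v : I → E) {lam : ℝ}
    (hlam : 0 < lam) :
    ∑ i, ∫ x, w' i x * ⟪x, v i⟫ * (1 + s * g x) ∂ρ - ∑ i, ∫ x, w i x * ⟪x, v i⟫ ∂ρ ≤
      s * (13 * (∫ x, g x ^ 2 ∂ρ) / lam +
        440 * R ^ 2 * lam * ∑ i, (∫ x, w i x ∂ρ) * ‖v i‖ ^ 2) := by
  have hR := S.R_pos
  have hH := hell_bound S C hg hm
  set κ := 1 / (32 * R ^ 2) with hκ
  have κ0 : 0 < κ := by positivity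
  have cw := C.cont
  have cw' := C.cont'
  have cG : Continuous fun x : E => (gw κ x)⁻¹ :=
    (continuous_gw κ).inv₀ fun x => (gw_pos _ _).ne'
  set A : I → ℝ := fun i => ∫ x, w i x * gw κ x ∂ρ with hA
  set A' : I → ℝ := fun i => ∫ x, w' i x * gw κ x ∂ρ with hA'
  have A0 : ∀ i, 0 < A i := fun i => S.pos (by fun_prop) fun x => mul_pos (C.pos i x) (gw_pos _ _)
  have A0' : ∀ i, 0 < A' i := fun i =>
    S.pos (by fun_prop) fun x => mul_pos (C.pos' i x) (gw_pos _ _)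
  set a : I → ℝ := fun i => ∫ x, w i x ∂ρ with ha
  set a' : I → ℝ := fun i => ∫ x, w' i x ∂ρ with ha'
  set B : I → ℝ := fun i => ∫ x, w i x * ⟪x, v i⟫ ∂ρ with hB
  set B' : I → ℝ := fun i => ∫ x, w' i x * ⟪x, v i⟫ ∂ρ with hB'
  set θ := s * lam with hθ
  have θ0 : 0 < θ := by positivity
  set u : I → E → ℝ := fun i x => -θ * ⟪x, v i⟫ * (gw κ x)⁻¹ with hu
  have cu : ∀ i, Continuous (u i) := fun i => by simp only [hu]; fun_prop
  have hcanc : ∀ (f : E → ℝ) (i : I), ∫ x, f x * gw κ x * u i x ∂ρ =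
      -θ * ∫ x, f x * ⟪x, v i⟫ ∂ρ := by
    intro f i
    rw [← integral_const_mul]
    congr 1; ext x
    have := (gw_pos κ x).ne'
    simp only [hu]
    field_simp
  have hin : ∀ i, ∀ x ∈ K, |⟪x, v i⟫| ≤ R * ‖v i‖ := fun i x hx =>
    (abs_real_inner_le_norm _ _).trans (by gcongr; exact S.bdd x hx)
  have hub : ∀ i, ∀ x ∈ K, |u i x| ≤ 2 * θ * R * ‖v i‖ := fun i x hx => by
    simp only [hu]
    rw [abs_mul, abs_mul, abs_neg, abs_of_pos θ0, abs_of_pos (inv_pos.2 (gw_pos _ _))]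
    calc θ * |⟪x, v i⟫| * (gw κ x)⁻¹ ≤ θ * (R * ‖v i‖) * 2 := by
          gcongr
          · exact (inv_pos.2 (gw_pos _ _)).le
          · exact hin i x hx
          · exact (gw_inv_bounds hR (S.bdd x hx)).2
      _ = _ := by ring
  have h1 := tilt_sum S κ0 C cu (L := fun i => 3 * θ * ‖v i‖) (fun i x hx y hy => by
    have e : u i x - u i y = -θ * (⟪x - y, v i⟫ * (gw κ x)⁻¹ +
        ⟪y, v i⟫ * ((gw κ x)⁻¹ - (gw κ y)⁻¹)) := by
      simp only [hu, inner_sub_left]; ring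
    rw [e]
    refine (le_abs_self _).trans ?_
    rw [abs_mul, abs_neg, abs_of_pos θ0]
    have b1 : |⟪x - y, v i⟫ * (gw κ x)⁻¹| ≤ ‖x - y‖ * ‖v i‖ * 2 := by
      rw [abs_mul, abs_of_pos (inv_pos.2 (gw_pos _ _))]
      gcongr
      · exact (inv_pos.2 (gw_pos _ _)).le
      · exact abs_real_inner_le_norm _ _
      · exact (gw_inv_bounds hR (S.bdd x hx)).2
    have b2 : |⟪y, v i⟫ * ((gw κ x)⁻¹ - (gw κ y)⁻¹)| ≤ R * ‖v i‖ * (1 / (16 * R) * ‖x - y‖) := by
      rw [abs_mul]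
      gcongr
      · exact hin i y hy
      · exact gw_inv_lip hR (S.bdd x hx) (S.bdd y hy)
    have b3 : R * ‖v i‖ * (1 / (16 * R) * ‖x - y‖) = ‖x - y‖ * ‖v i‖ / 16 := by field_simp
    have b4 := (abs_add_le _ _).trans (add_le_add b1 b2)
    have b5 : 0 ≤ ‖x - y‖ * ‖v i‖ := by positivity
    calc _ ≤ θ * (3 * (‖x - y‖ * ‖v i‖)) := by gcongr; linarith
      _ = _ := by ring)
  simp only [hcanc] at h1
  set H := ∑ i, (√(A i) - √(A' i)) ^ 2 with hH'
  have haa : ∀ i, a' i ≤ 2 * a i := by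
    intro i
    simp only [ha, ha', hm i]
    rw [← integral_const_mul]
    refine S.mono (by fun_prop) (by fun_prop) fun x hx => ?_
    have := (abs_le.1 (hsg x hx)).1
    nlinarith [C.pos' i x]
  have hAa : ∀ (f : E → ℝ), Continuous f → (∀ x, 0 < f x) →
      ∫ x, f x * gw κ x ∂ρ ≤ ∫ x, f x ∂ρ := fun f hf f0 => by
    refine S.mono (by fun_prop) hf fun x hx => ?_
    have := (gw_inv_bounds hR (S.bdd x hx)).1
    rw [one_le_inv₀ (gw_pos _ _)] at this
    nlinarith [f0 x]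
  have h2 : ∀ i, θ * (B' i - B i) ≤
      √(A i) * √(A' i) * (-θ * B i / A i - -θ * B' i / A' i - (3 * θ * ‖v i‖) ^ 2 / κ) +
      (√(A i) - √(A' i)) ^ 2 + 438 * R ^ 2 * θ ^ 2 * (a i * ‖v i‖ ^ 2) := by
    intro i
    have hE := avg_abs_le S (w := fun x => w i x * gw κ x) (by fun_prop) (cu i)
      (fun x => mul_pos (C.pos i x) (gw_pos _ _)) (hub i)
    have hE' := avg_abs_le S (w := fun x => w' i x * gw κ x) (by fun_prop) (cu i)
      (fun x => mul_pos (C.pos' i x) (gw_pos _ _)) (hub i)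
    rw [hcanc] at hE hE'
    change |-θ * B i / A i| ≤ _ at hE
    change |-θ * B' i / A' i| ≤ _ at hE'
    have l1 : A i ≤ a i := hAa _ (cw i) (C.pos i)
    have l2 : A' i ≤ 2 * a i := (hAa _ (cw' i) (C.pos' i)).trans (haa i)
    set α := √(A i) with hα
    set α' := √(A' i) with hα'
    have α0 : 0 < α := Real.sqrt_pos.2 (A0 i)
    have α0' : 0 < α' := Real.sqrt_pos.2 (A0' i)
    have eα : A i = α ^ 2 := (Real.sq_sqrt (A0 i).le).symm
    have eα' : A' i = α' ^ 2 := (Real.sq_sqrt (A0' i).le).symm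
    set E1 := -θ * B i / A i with hE1
    set E2 := -θ * B' i / A' i with hE2'
    have f1 : -θ * B i = α ^ 2 * E1 := by rw [hE1, ← eα]; field_simp [(A0 i).ne']
    have f2 : -θ * B' i = α' ^ 2 * E2 := by rw [hE2', ← eα']; field_simp [(A0' i).ne']
    have id1 : θ * (B' i - B i) = α * α' * (E1 - E2) + (α - α') * (α * E1 + α' * E2) := by
      linear_combination f1 - f2
    set M := θ * R * ‖v i‖ with hM
    have M0 : 0 ≤ M := by positivity
    have b1 : |α * E1 + α' * E2| ≤ (α + α') * (2 * M) := by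
      refine (abs_add_le _ _).trans ?_
      rw [abs_mul, abs_mul, abs_of_pos α0, abs_of_pos α0', add_mul]
      have e : 2 * θ * R * ‖v i‖ = 2 * M := by rw [hM]; ring
      rw [e] at hE hE'
      gcongr
    have b2 : (α - α') * (α * E1 + α' * E2) ≤ (α - α') ^ 2 + (α + α') ^ 2 * M ^ 2 := by
      refine (le_abs_self _).trans ?_
      rw [abs_mul, ← sq_abs (α - α')]
      have := mul_le_mul_of_nonneg_left b1 (abs_nonneg (α - α'))
      nlinarith [sq_nonneg (|α - α'| - (α + α') * M)]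
    have e3 : (3 * θ * ‖v i‖) ^ 2 / κ = 288 * M ^ 2 := by rw [hκ, hM]; field_simp; ring
    have e4 : 438 * R ^ 2 * θ ^ 2 * (a i * ‖v i‖ ^ 2) = 438 * a i * M ^ 2 := by rw [hM]; ring
    rw [id1, e3, e4]
    have b3 : (α + α') ^ 2 + 288 * (α * α') ≤ 438 * a i := by
      nlinarith [sq_nonneg (α - α')]
    nlinarith [mul_le_mul_of_nonneg_right b3 (sq_nonneg M)]
  have h3 := Finset.sum_le_sum fun i (_ : i ∈ Finset.univ) => h2 i
  rw [Finset.sum_add_distrib, Finset.sum_add_distrib, ← Finset.mul_sum, ← Finset.mul_sum,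
    ← hH', Finset.sum_sub_distrib] at h3
  have h4 : ∀ i, ∫ x, w' i x * ⟪x, v i⟫ * (1 + s * g x) ∂ρ ≤ B' i +
      s * ((∫ x, w' i x * g x ^ 2 ∂ρ) / lam + 2 * R ^ 2 * lam * (a i * ‖v i‖ ^ 2)) := by
    intro i
    have : ∫ x, w' i x * ⟪x, v i⟫ * (1 + s * g x) ∂ρ ≤ ∫ x, (w' i x * ⟪x, v i⟫ +
        ((s / lam) * (w' i x * g x ^ 2) + (s * R ^ 2 * lam * ‖v i‖ ^ 2) * w' i x)) ∂ρ := by
      refine S.mono (by fun_prop) (by fun_prop) fun x hx => ?_
      have b1 : ⟪x, v i⟫ * g x ≤ g x ^ 2 / lam + R ^ 2 * lam * ‖v i‖ ^ 2 := by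
        have b0 : ⟪x, v i⟫ ^ 2 ≤ (R * ‖v i‖) ^ 2 := by
          rw [← sq_abs]; gcongr; exact hin i x hx
        rw [div_add' _ _ _ hlam.ne', le_div_iff₀ hlam]
        nlinarith [sq_nonneg (g x - lam * ⟪x, v i⟫), sq_nonneg (g x), sq_nonneg lam,
          mul_le_mul_of_nonneg_left b0 (sq_nonneg lam), sq_nonneg (lam * ⟪x, v i⟫)]
      have := mul_le_mul_of_nonneg_left b1 (mul_pos hs (C.pos' i x)).le
      have e : s / lam * (w' i x * g x ^ 2) = s * w' i x * (g x ^ 2 / lam) := by ring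
      nlinarith
    rw [S.add (by fun_prop) (by fun_prop), S.add (by fun_prop) (by fun_prop), integral_const_mul,
      integral_const_mul] at this
    refine this.trans ?_
    have b2 := mul_le_mul_of_nonneg_left (haa i) (show 0 ≤ s * R ^ 2 * lam * ‖v i‖ ^ 2 by positivity)
    have e : s / lam * (∫ x, w' i x * g x ^ 2 ∂ρ) = s * ((∫ x, w' i x * g x ^ 2 ∂ρ) / lam) := by
      ring
    change B' i + (_ + _ * a' i) ≤ _
    nlinarith
  have h5 := Finset.sum_le_sum fun i (_ : i ∈ Finset.univ) => h4 i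
  rw [Finset.sum_add_distrib, ← Finset.mul_sum, Finset.sum_add_distrib, ← Finset.mul_sum,
    ← Finset.sum_div, sum_mass S C.cont' C.sum' (f := fun x => g x ^ 2) (by fun_prop)] at h5
  set V := ∑ i, a i * ‖v i‖ ^ 2 with hV
  set Q := ∫ x, g x ^ 2 ∂ρ with hQ
  have h6 : θ * (∑ i, B' i - ∑ i, B i) ≤ 12 * s ^ 2 * Q + 438 * R ^ 2 * θ ^ 2 * V := by
    linarith
  have h7 : ∑ i, B' i - ∑ i, B i ≤ s * (12 * Q / lam + 438 * R ^ 2 * lam * V) := by
    refine le_of_mul_le_mul_left (h6.trans (le_of_eq ?_)) θ0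
    rw [hθ]; field_simp
  change _ - ∑ i, B i ≤ s * (13 * Q / lam + 440 * R ^ 2 * lam * V)
  have e : s * (13 * Q / lam + 440 * R ^ 2 * lam * V) =
      s * (12 * Q / lam + 438 * R ^ 2 * lam * V) + s * (Q / lam + 2 * R ^ 2 * lam * V) := by ring
  linarith

end Crest.Agent.R82
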