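import Crest.Agent.R82.Rev

set_option autoImplicit false
set_option linter.unusedSectionVars false

namespace Crest.Agent.R82

open MeasureTheory Set Filter Topology Crest.AnalysisR.OT
open scoped ENNReal NNReal RealInnerProductSpace

variable {d : ℕ}

local notation "E" => EuclideanSpace ℝ (Fin d)

variable {ρ : Measure (EuclideanSpace ℝ (Fin d))} {K : Set (EuclideanSpace ℝ (Fin d))} {R : ℝ}

lemma claimA (j : Fin d) (S : Setup ρ K R) (hac : ρ ≪ volume) {K' : Set E} {h l : ℝ}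
    (L : Layer ρ K K' h l) (h0 : 0 < h) {Y : Set E} (hY : IsCompact Y) (hYn : Y.Nonempty)
    (hYR : ∀ y ∈ Y, ‖y‖ ≤ R) {μ ν : Measure E} (hμ : IsProbabilityOn Y μ)
    (hν : IsProbabilityOn Y ν) {Tμ Tν : E → E} (hTμ : IsOptimalMap ρ μ Tμ)
    (hTν : IsOptimalMap ρ ν Tν) {π : Measure (E × E)} (hπ : IsPairCoupling μ ν π) :
    ∫ x, ‖Tν x - Tμ x‖ ^ 2 ∂ρ ≤ 2 * d * (4 / h ^ 2 * (45760 * R ^ 2 *
      (2 * ∫ p, ‖p.1 - p.2‖ ^ 2 ∂π)) + 12 * R ^ 2 * l) := by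
  have hR := S.R_pos
  have := hμ.1
  have := hν.1
  have bμ : ∀ᵐ y ∂μ, ‖y‖ ≤ R := (show ∀ᵐ y ∂μ, y ∈ Y from hμ.2).mono hYR
  have bν : ∀ᵐ y ∂ν, ‖y‖ ≤ R := (show ∀ᵐ y ∂ν, y ∈ Y from hν.2).mono hYR
  set δ2 := ∫ p, ‖p.1 - p.2‖ ^ 2 ∂π with hδ2
  have key : ∀ η : ℝ, 0 < η → ∫ x, ‖Tν x - Tμ x‖ ^ 2 ∂ρ ≤ 2 * d * (4 / h ^ 2 * (45760 * R ^ 2 *
      (2 * δ2 + 8 * η ^ 2)) + 4 * R / h * ((η + 4 * R * η) + (η + 4 * R * η)) +
      12 * R ^ 2 * l) := by
    intro η hη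
    obtain ⟨I, _, _, m, y, z, μi, νi, hm, hm1, hy, hz, pμ, pν, nμ, nν, sμ, sν, hV⟩ :=
      discretize hY hYn hYR hμ hν hπ hη
    have hc : (0 : ℝ) < Fintype.card I := by exact_mod_cast Fintype.card_pos
    have hε : 0 < η / Fintype.card I := by positivity
    obtain ⟨ψ0, h0'⟩ := exists_min S hε (dens_one S) hm hm1 hy
    obtain ⟨ψ1, h1'⟩ := exists_min S hε (dens_one S) hm hm1 hz
    obtain ⟨c, hc'⟩ := var_bound S hε hm hm1 hy hz h0' h1'
    obtain ⟨e0, ie0, be0, he0⟩ := gap j S hac bμ hTμ hm pμ hy hη nμ hm1 sμ hε h0'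
    obtain ⟨e1, ie1, be1, he1⟩ := gap j S hac bν hTν hm pν hz hη nν hm1 sν hε h1'
    rw [div_mul_cancel₀ _ hc.ne'] at be0 be1
    refine (rev_bound S L h0 (continuous_pot _ z ψ1) (continuous_pot _ y ψ0) ie1 ie0 hTν.1 hTμ.1
      (ae_norm_map bν hTν.1 hTν.2.1) (ae_norm_map bμ hTμ.1 hTμ.2.1) he1 he0
      (pot_lip hε hy ψ0) (fun x x' => ?_) c).trans ?_
    · have := pot_mid hε y ψ0 ψ0 x x'
      simpa using this
    · gcongr
      exact hc'.trans (by gcongr)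
  have cont : Continuous fun η : ℝ => 2 * d * (4 / h ^ 2 * (45760 * R ^ 2 *
      (2 * δ2 + 8 * η ^ 2)) + 4 * R / h * ((η + 4 * R * η) + (η + 4 * R * η)) +
      12 * R ^ 2 * l) := by fun_prop
  have := ge_of_tendsto ((cont.tendsto 0).mono_left (nhdsWithin_le_nhds (s := Ioi 0)))
    (eventually_nhdsWithin_of_forall key)
  simpa using this

lemma third_bound {D δ A B r M : ℝ} (hA : 0 ≤ A) (hB : 0 ≤ B) (hr : 0 < r) (hM : 0 ≤ M)
    (hδ : 0 ≤ δ) (h1 : ∀ h, 0 < h → h ≤ r → D ≤ A * δ / h ^ 2 + B * h) (h2 : D ≤ M) :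
    D ≤ (A + B + M / r) * δ ^ (1 / 3 : ℝ) := by
  rcases hδ.eq_or_lt with rfl | hδ
  · rw [Real.zero_rpow (by norm_num), mul_zero]
    have cont : Continuous fun h : ℝ => B * h := by fun_prop
    have := ge_of_tendsto (b := D) ((cont.tendsto 0).mono_left (nhdsWithin_le_nhds (s := Ioi 0)))
      (by
        filter_upwards [Ioc_mem_nhdsGT hr] with h hh
        simpa using h1 h hh.1 hh.2)
    simpa using this
  set τ := δ ^ (1 / 3 : ℝ) with hτ
  have τ0 : 0 < τ := Real.rpow_pos_of_pos hδ _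
  have e : δ = τ ^ 3 := by
    rw [hτ, ← Real.rpow_natCast, ← Real.rpow_mul hδ.le]; norm_num
  have p1 : 0 ≤ M / r * τ := by positivity
  rcases le_total τ r with h | h
  · have := h1 τ τ0 h
    have e2 : A * δ / τ ^ 2 = A * τ := by rw [e]; field_simp
    rw [e2] at this
    nlinarith
  · have : M ≤ M / r * τ := by
      rw [div_mul_eq_mul_div, le_div_iff₀ hr]; gcongr
    nlinarith [mul_nonneg hA τ0.le, mul_nonneg hB τ0.le]

lemma lintegral_enorm_sq {X F : Type*} [MeasurableSpace X] [NormedAddCommGroup F] {μ : Measure X}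
    {f : X → F} (hf : Integrable (fun x => ‖f x‖ ^ 2) μ) :
    ∫⁻ x, ‖f x‖ₑ ^ 2 ∂μ = ENNReal.ofReal (∫ x, ‖f x‖ ^ 2 ∂μ) := by
  rw [ofReal_integral_eq_lintegral_ofReal hf (ae_of_all _ fun x => by positivity)]
  congr 1; ext x
  rw [← ofReal_norm, ENNReal.ofReal_pow (norm_nonneg _)]

theorem stability (hd : 2 ≤ d) (hKc : IsCompact K) (hKv : Convex ℝ K)
    (hKi : (interior K).Nonempty) (Y : Set E) (hYc : IsCompact Y) (hYn : Y.Nonempty) :
    ∃ C : ℝ≥0, ∀ μ ν : Measure E, IsProbabilityOn Y μ → IsProbabilityOn Y ν →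
      ∀ Tμ Tν : E → E,
        IsOptimalMap (uniformProbOn K) μ Tμ → IsOptimalMap (uniformProbOn K) ν Tν →
        ∀ π : Measure (E × E), IsPairCoupling μ ν π →
          ∫⁻ x, ‖Tμ x - Tν x‖ₑ ^ 2 ∂(uniformProbOn K) ≤ C * quadCost π ^ (1 / 3 : ℝ) := by
  obtain ⟨R, hR, hb⟩ := (hKc.union hYc).isBounded.exists_pos_norm_le
  have S := setup_uniform hKc hKv hKi hR fun x hx => hb x (Or.inl hx)
  have hYR : ∀ y ∈ Y, ‖y‖ ≤ R := fun y hy => hb y (Or.inr hy)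
  obtain ⟨c, hc⟩ := hKi
  obtain ⟨r, hr, hball⟩ := Metric.nhds_basis_closedBall.mem_iff.1 (mem_interior_iff_mem_nhds.1 hc)
  have hac : uniformProbOn K ≪ volume :=
    (Measure.smul_absolutelyContinuous).trans Measure.restrict_le_self.absolutelyContinuous
  set A : ℝ := 2 * d * (4 * (45760 * R ^ 2 * 2)) with hA
  set B : ℝ := 2 * d * (12 * R ^ 2 * d / r) with hB
  have A0 : 0 ≤ A := by positivity
  have B0 : 0 ≤ B := by positivity
  refine ⟨Real.toNNReal (A + B + (2 * R) ^ 2 / r), fun μ ν hμ hν Tμ Tν hTμ hTν π hπ => ?_⟩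
  have := S.prob
  have := hμ.1
  have bμ : ∀ᵐ y ∂μ, ‖y‖ ≤ R := (show ∀ᵐ y ∂μ, y ∈ Y from hμ.2).mono hYR
  have bν : ∀ᵐ y ∂ν, ‖y‖ ≤ R := (show ∀ᵐ y ∂ν, y ∈ Y from hν.2).mono hYR
  have hbd : ∀ᵐ x ∂uniformProbOn K, ‖Tμ x - Tν x‖ ^ 2 ≤ (2 * R) ^ 2 := by
    filter_upwards [ae_norm_map bμ hTμ.1 hTμ.2.1, ae_norm_map bν hTν.1 hTν.2.1] with x h1 h2
    exact pow_le_pow_left₀ (norm_nonneg _) ((norm_sub_le _ _).trans (by linarith)) 2
  have iD : Integrable (fun x => ‖Tμ x - Tν x‖ ^ 2) (uniformProbOn K) := by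
    refine Integrable.of_bound ((hTμ.1.sub hTν.1).norm.pow_const 2).aestronglyMeasurable
      ((2 * R) ^ 2) ?_
    filter_upwards [hbd] with x hx
    rwa [Real.norm_eq_abs, abs_of_nonneg (by positivity)]
  have hπp : IsProbabilityMeasure π := ⟨by
    have := congrArg (fun m : Measure E => m univ) hπ.1
    simpa [Measure.map_apply measurable_fst MeasurableSet.univ] using this⟩
  have iπ : Integrable (fun p : E × E => ‖p.1 - p.2‖ ^ 2) π := by
    refine integrable_of_cont (R' := R) ?_ (by fun_prop)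
    have a1 : ∀ᵐ p ∂π, ‖p.1‖ ≤ R := by
      refine ae_of_ae_map (p := fun y => ‖y‖ ≤ R) measurable_fst.aemeasurable ?_
      rw [hπ.1]; exact bμ
    have a2 : ∀ᵐ p ∂π, ‖p.2‖ ≤ R := by
      refine ae_of_ae_map (p := fun y => ‖y‖ ≤ R) measurable_snd.aemeasurable ?_
      rw [hπ.2]; exact bν
    filter_upwards [a1, a2] with p h1 h2
    exact max_le h1 h2
  have δ0 : 0 ≤ ∫ p : E × E, ‖p.1 - p.2‖ ^ 2 ∂π := integral_nonneg fun p => by positivity
  rw [lintegral_enorm_sq iD, quadCost, lintegral_enorm_sq iπ,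
    ENNReal.ofReal_rpow_of_nonneg δ0 (by norm_num)]
  change _ ≤ ENNReal.ofReal _ * _
  rw [← ENNReal.ofReal_mul (by positivity)]
  refine ENNReal.ofReal_le_ofReal (third_bound A0 B0 hr (by positivity) δ0 (fun h h0 hhr => ?_) ?_)
  · obtain ⟨K', L⟩ := exists_layer hKc hKv hr hball h0 hhr
    have := claimA ⟨0, by omega⟩ S hac L h0 hYc hYn hYR hμ hν hTμ hTν hπ
    simp only [norm_sub_rev (Tν _)] at this
    refine this.trans (le_of_eq ?_)
    rw [hA, hB]; ring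
  · have := integral_mono_ae iD (integrable_const _) hbd
    simpa using this

end Crest.Agent.R82
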