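import Crest.Agent.R82.Lse

set_option autoImplicit false
set_option linter.unusedSectionVars false

namespace Crest.Agent.R82

open MeasureTheory Set Filter Topology
open scoped RealInnerProductSpace

variable {E : Type*} [NormedAddCommGroup E] [InnerProductSpace ℝ E] [MeasurableSpace E]
  [OpensMeasurableSpace E] {ρ : Measure E} {K : Set E} {R : ℝ}

lemma cosh_lower (x : ℝ) : 2 + x ^ 2 / 2 ≤ Real.exp x + Real.exp (-x) := by
  rcases le_total 0 x with h | h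
  · linarith [Real.quadratic_le_exp_of_nonneg h, Real.add_one_le_exp (-x)]
  · have := Real.quadratic_le_exp_of_nonneg (neg_nonneg.2 h)
    nlinarith [Real.add_one_le_exp x]

lemma strong_conv (M : ℝ) (hM : 0 ≤ M) : ∃ C : ℝ, 0 ≤ C ∧ ∀ {φ0 φ1 φm : E → ℝ}, Setup ρ K R →
    Continuous φ0 → Continuous φ1 → Continuous φm →
    (∀ x ∈ K, ∀ y ∈ K, φm (mid x y) ≤ (φ0 x + φ1 y) / 2) →
    (∀ x ∈ K, ∀ y ∈ K, φ0 x ≤ φ0 y + M) → (∀ x ∈ K, ∀ y ∈ K, φ1 x ≤ φ1 y + M) →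
    (∀ x ∈ K, ∀ y ∈ K, φm x ≤ φm y + M) → ∫ x, ((φ0 x + φ1 x) / 2 - φm x) ∂ρ ≤ 1 →
    ∃ c, ∫ x, (φ1 x - φ0 x - c) ^ 2 ∂ρ ≤ C * ∫ x, ((φ0 x + φ1 x) / 2 - φm x) ∂ρ := by
  set N := 1 + 2 * M with hN
  have N0 : 0 ≤ N := by positivity
  refine ⟨8 * Real.exp M ^ 2 * (2 * Real.exp N + N * Real.exp N ^ 2), by positivity, ?_⟩
  intro φ0 φ1 φm S c0 c1 cm hmid l0 l1 lm hI
  obtain ⟨x0, hx0⟩ := S.nonempty
  set a0 := (φ0 x0 + φ1 x0) / 2 with ha0
  set ω : E → ℝ := fun x => Real.exp (a0 - (φ0 x + φ1 x) / 2) with hω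
  have cω : Continuous ω := by simp only [hω]; fun_prop
  have ω0 : ∀ x, 0 < ω x := fun x => Real.exp_pos _
  have ωle : ∀ x ∈ K, ω x ≤ Real.exp M := fun x hx =>
    Real.exp_le_exp.2 (by linarith [l0 x0 hx0 x hx, l1 x0 hx0 x hx])
  have ωge : ∀ x ∈ K, 1 ≤ Real.exp M * ω x := fun x hx => by
    simp only [hω, ← Real.exp_add]
    exact Real.one_le_exp (by linarith [l0 x hx x0 hx0, l1 x hx x0 hx0])
  set e : E → ℝ := fun x => (φ0 x + φ1 x) / 2 - φm x with he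
  have ce : Continuous e := by simp only [he]; fun_prop
  have e0 : ∀ x ∈ K, 0 ≤ e x := fun x hx => by
    have := hmid x hx x hx
    rw [mid_self] at this
    simp only [he]; linarith
  have eN : ∀ x ∈ K, e x ≤ N := fun x hx => by
    have h1 : ∫ _, (e x - 2 * M) ∂ρ ≤ ∫ y, e y ∂ρ := S.mono (by fun_prop) ce fun y hy => by
      simp only [he]
      linarith [l0 x hx y hy, l1 x hx y hy, lm y hy x hx]
    rw [S.const] at h1
    linarith
  set Z := ∫ x, ω x ∂ρ with hZ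
  have Z0 : 0 < Z := S.pos cω ω0
  set c := (∫ x, ω x * ((φ1 x - φ0 x) / 2) ∂ρ) / Z with hc
  set d : E → ℝ := fun x => (φ1 x - φ0 x) / 2 - c with hd
  have cd : Continuous d := by simp only [hd]; fun_prop
  have d0 : ∫ x, ω x * d x ∂ρ = 0 := by
    have : ∀ x, ω x * d x = ω x * ((φ1 x - φ0 x) / 2) - c * ω x := fun x => by
      simp only [hd]; ring
    simp only [this]
    rw [S.sub (by fun_prop) (by fun_prop), integral_const_mul, ← hZ, hc]
    field_simp; ring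
  have key := S.pl (fun x => ω x * Real.exp (d x)) (fun x => ω x * Real.exp (-d x))
    (fun x => ω x * Real.exp (e x)) (by fun_prop) (by fun_prop) (by fun_prop)
    (fun x => by have := ω0 x; positivity) (fun x => by have := ω0 x; positivity)
    (fun x => by have := ω0 x; positivity) (fun x hx y hy => by
      simp only [hω, hd, he, sq, ← Real.exp_add, Real.exp_le_exp]
      linarith [hmid x hx y hy])
  set P := ∫ x, ω x * Real.exp (d x) ∂ρ with hP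
  set Q := ∫ x, ω x * Real.exp (-d x) ∂ρ with hQ
  set W := ∫ x, ω x * d x ^ 2 ∂ρ with hW
  set J := ∫ x, ω x * e x ∂ρ with hJ
  have hPZ : Z ≤ P := by
    have : ∫ x, (ω x * d x + ω x) ∂ρ ≤ P := S.mono (by fun_prop) (by fun_prop) fun x _ => by
      nlinarith [mul_le_mul_of_nonneg_left (Real.add_one_le_exp (d x)) (ω0 x).le]
    rwa [S.add (by fun_prop) cω, d0, zero_add] at this
  have hQZ : Z ≤ Q := by
    have : ∫ x, (ω x - ω x * d x) ∂ρ ≤ Q := S.mono (by fun_prop) (by fun_prop) fun x _ => by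
      nlinarith [mul_le_mul_of_nonneg_left (Real.add_one_le_exp (-d x)) (ω0 x).le]
    rwa [S.sub cω (by fun_prop), d0, sub_zero] at this
  have hPQ : 2 * Z + 1 / 2 * W ≤ P + Q := by
    rw [hP, hQ, ← S.add (by fun_prop) (by fun_prop), hZ, hW, ← integral_const_mul,
      ← integral_const_mul, ← S.add (by fun_prop) (by fun_prop)]
    refine S.mono (by fun_prop) (by fun_prop) fun x _ => ?_
    nlinarith [mul_le_mul_of_nonneg_left (cosh_lower (d x)) (ω0 x).le]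
  have hH : ∫ x, ω x * Real.exp (e x) ∂ρ ≤ Z + Real.exp N * J := by
    rw [hZ, hJ, ← integral_const_mul, ← S.add cω (by fun_prop)]
    refine S.mono (by fun_prop) (by fun_prop) fun x hx => ?_
    have h1 : Real.exp (e x) ≤ 1 + Real.exp N * e x := by
      have h2 := mul_le_mul_of_nonneg_left (Real.add_one_le_exp (-e x)) (Real.exp_pos (e x)).le
      rw [← Real.exp_add, add_neg_cancel, Real.exp_zero] at h2
      have h3 := mul_le_mul_of_nonneg_right (Real.exp_le_exp.2 (eN x hx)) (e0 x hx)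
      linarith
    nlinarith [mul_le_mul_of_nonneg_left h1 (ω0 x).le]
  have J0 : 0 ≤ J := by
    have := S.mono (f := fun _ => 0) (g := fun x => ω x * e x) (by fun_prop) (by fun_prop)
      fun x hx => mul_nonneg (ω0 x).le (e0 x hx)
    rwa [S.const] at this
  have JN : J ≤ N * Z := by
    rw [hJ, hZ, ← integral_const_mul]
    refine S.mono (by fun_prop) (by fun_prop) fun x hx => ?_
    nlinarith [mul_le_mul_of_nonneg_left (eN x hx) (ω0 x).le]
  have H0 : 0 ≤ ∫ x, ω x * Real.exp (e x) ∂ρ :=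
    integral_nonneg fun x => by have := ω0 x; positivity
  have k1 : P * Q ≤ (Z + Real.exp N * J) ^ 2 := key.trans (by gcongr)
  have k2 : Z * (1 / 2 * W) ≤ Z * ((2 * Real.exp N + N * Real.exp N ^ 2) * J) := by
    have k3 := mul_nonneg (sub_nonneg.2 hPZ) (sub_nonneg.2 hQZ)
    have k4 := mul_le_mul_of_nonneg_left hPQ Z0.le
    have k5 := mul_le_mul_of_nonneg_left JN (mul_nonneg (sq_nonneg (Real.exp N)) J0)
    nlinarith
  have k6 := le_of_mul_le_mul_left k2 Z0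
  have k7 : J ≤ Real.exp M * ∫ x, e x ∂ρ := by
    rw [hJ, ← integral_const_mul]
    exact S.mono (by fun_prop) (by fun_prop) fun x hx =>
      mul_le_mul_of_nonneg_right (ωle x hx) (e0 x hx)
  have k8 : ∫ x, (φ1 x - φ0 x - 2 * c) ^ 2 ∂ρ ≤ 4 * Real.exp M * W := by
    rw [hW, ← integral_const_mul]
    refine S.mono (by fun_prop) (by fun_prop) fun x hx => ?_
    have h1 : (φ1 x - φ0 x - 2 * c) ^ 2 = 4 * d x ^ 2 := by simp only [hd]; ring
    rw [h1]
    nlinarith [mul_le_mul_of_nonneg_right (ωge x hx) (sq_nonneg (d x))]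
  refine ⟨2 * c, k8.trans ?_⟩
  have k9 : W ≤ 2 * ((2 * Real.exp N + N * Real.exp N ^ 2) * (Real.exp M * ∫ x, e x ∂ρ)) := by
    have : (2 * Real.exp N + N * Real.exp N ^ 2) * J ≤
      (2 * Real.exp N + N * Real.exp N ^ 2) * (Real.exp M * ∫ x, e x ∂ρ) := by gcongr
    linarith
  calc 4 * Real.exp M * W ≤ 4 * Real.exp M *
        (2 * ((2 * Real.exp N + N * Real.exp N ^ 2) * (Real.exp M * ∫ x, e x ∂ρ))) := by gcongr
    _ = _ := by ring

lemma telescope {h0 h1 a0 a1 : ℝ → ℝ} {L : ℝ}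
    (s0 : ∀ t ∈ Icc (0 : ℝ) 1, ∀ t' ∈ Icc (0 : ℝ) 1, h0 t + (t' - t) * a0 t ≤ h0 t')
    (s1 : ∀ t ∈ Icc (0 : ℝ) 1, ∀ t' ∈ Icc (0 : ℝ) 1, h1 t + (t' - t) * a1 t ≤ h1 t')
    (hL : ∀ t ∈ Icc (0 : ℝ) 1, a1 t - a0 t ≤ L) :
    h1 1 - h0 1 - (h1 0 - h0 0) ≤ L := by
  have key : ∀ n : ℕ, 0 < n → h1 1 - h0 1 - (h1 0 - h0 0) ≤ L + (a0 1 - a0 0) * (n : ℝ)⁻¹ := by
    intro n hn
    have hn' : (0 : ℝ) < n := by exact_mod_cast hn
    have ind : ∀ k : ℕ, k ≤ n → h1 (k / n) - h0 (k / n) - (h1 0 - h0 0) ≤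
        k * L * (n : ℝ)⁻¹ + (a0 (k / n) - a0 0) * (n : ℝ)⁻¹ := by
      intro k
      induction k with
      | zero => simp
      | succ k ih =>
        intro hk
        have m1 : (k : ℝ) / n ∈ Icc (0 : ℝ) 1 :=
          ⟨by positivity, by rw [div_le_one hn']; exact_mod_cast (by omega)⟩
        have m2 : ((k + 1 : ℕ) : ℝ) / n ∈ Icc (0 : ℝ) 1 :=
          ⟨by positivity, by rw [div_le_one hn']; exact_mod_cast hk⟩
        have e : ((k + 1 : ℕ) : ℝ) / n - (k : ℝ) / n = (n : ℝ)⁻¹ := by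
          push_cast; field_simp; ring
        have e' : (k : ℝ) / n - ((k + 1 : ℕ) : ℝ) / n = -(n : ℝ)⁻¹ := by linarith
        have i0 := s0 _ m1 _ m2
        have i1 := s1 _ m2 _ m1
        rw [e] at i0
        rw [e'] at i1
        have i2 := mul_le_mul_of_nonneg_left (hL _ m2) (inv_nonneg.2 hn'.le)
        have i3 := ih (by omega)
        have e2 : ((k + 1 : ℕ) : ℝ) * L * (n : ℝ)⁻¹ = k * L * (n : ℝ)⁻¹ + (n : ℝ)⁻¹ * L := by
          push_cast; ring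
        rw [e2]
        nlinarith
    have := ind n le_rfl
    rw [div_self hn'.ne'] at this
    have e : (n : ℝ) * L * (n : ℝ)⁻¹ = L := by field_simp
    rwa [e] at this
  have t : Tendsto (fun n : ℕ => L + (a0 1 - a0 0) * (n : ℝ)⁻¹) atTop (𝓝 (L + (a0 1 - a0 0) * 0)) :=
    tendsto_const_nhds.add ((tendsto_inv_atTop_nhds_zero_nat (𝕜 := ℝ)).const_mul _)
  rw [mul_zero, add_zero] at t
  exact ge_of_tendsto t ((eventually_gt_atTop 0).mono key)

variable {I : Type*} [Fintype I] [Nonempty I] {ε : ℝ}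

lemma dens_one (S : Setup ρ K R) : Dens ρ K fun _ => 1 :=
  ⟨continuous_const, fun _ _ => zero_le_one, S.const 1⟩

lemma pot_osc (S : Setup ρ K R) (hε : 0 < ε) {p : I → E} (hp : ∀ i, ‖p i‖ ≤ R) (ψ : I → ℝ) :
    ∀ x ∈ K, ∀ y ∈ K, pot ε p ψ x ≤ pot ε p ψ y + 2 * R ^ 2 := fun x hx y hy => by
  have h1 := pot_lip hε hp ψ x y
  have h2 : ‖x - y‖ ≤ 2 * R := (norm_sub_le _ _).trans (by linarith [S.bdd x hx, S.bdd y hy])
  nlinarith [mul_le_mul_of_nonneg_left h2 S.R_pos.le]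

lemma dualF_pert (S : Setup ρ K R) {g : E → ℝ} (hg : Continuous g) (s : ℝ) (m : I → ℝ) (p : I → E)
    (ψ : I → ℝ) : dualF ε ρ (fun x => 1 + s * g x) m p ψ =
      dualF ε ρ (fun _ => 1) m p ψ + s * ∫ x, pot ε p ψ x * g x ∂ρ := by
  simp only [dualF, mul_add, mul_one]
  rw [S.add (by fun_prop) (by fun_prop), ← integral_const_mul]
  have : ∀ x, pot ε p ψ x * (s * g x) = s * (pot ε p ψ x * g x) := fun x => by ring
  simp only [this]
  ring

/-- the mixed second difference of the optimal values -/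
lemma mixed (S : Setup ρ K R) (hε : 0 < ε) {m : I → ℝ} (hm : ∀ i, 0 < m i) (hm1 : ∑ i, m i = 1)
    {y z : I → E} (hy : ∀ i, ‖y i‖ ≤ R) (hz : ∀ i, ‖z i‖ ≤ R) {g : E → ℝ} (hg : Continuous g)
    (hg0 : ∫ x, g x ∂ρ = 0) {s : ℝ} (hs : 0 < s) (hsg : ∀ x ∈ K, |s * g x| ≤ 1 / 2)
    {lam : ℝ} (hlam : 0 < lam) {ψ0 : I → ℝ}
    (h0 : ∀ ψ, dualF ε ρ (fun _ => 1) m y ψ0 ≤ dualF ε ρ (fun _ => 1) m y ψ) :
    ∃ ψ' : I → ℝ, (∀ ψ, dualF ε ρ (fun x => 1 + s * g x) m z ψ' ≤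
        dualF ε ρ (fun x => 1 + s * g x) m z ψ) ∧
      ∫ x, pot ε z ψ' x * g x ∂ρ - ∫ x, pot ε y ψ0 x * g x ∂ρ ≤
        13 * (∫ x, g x ^ 2 ∂ρ) / lam + 440 * R ^ 2 * lam * ∑ i, m i * ‖z i - y i‖ ^ 2 := by
  have D0 := dens_one S
  have D1 : Dens ρ K fun x => 1 + s * g x := ⟨by fun_prop,
    fun x hx => by linarith [(abs_le.1 (hsg x hx)).1],
    by rw [S.add (by fun_prop) (by fun_prop), integral_const_mul, hg0, S.const]; simp⟩
  set p : ℝ → I → E := fun t i => y i + t • (z i - y i) with hp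
  have hpR : ∀ t ∈ Icc (0 : ℝ) 1, ∀ i, ‖p t i‖ ≤ R := fun t ht i => by
    have e : p t i = (1 - t) • y i + t • z i := by simp only [hp]; module
    rw [e]
    refine (norm_add_le _ _).trans ?_
    rw [norm_smul, norm_smul, Real.norm_eq_abs, Real.norm_eq_abs, abs_of_nonneg ht.1,
      abs_of_nonneg (sub_nonneg.2 ht.2)]
    nlinarith [mul_le_mul_of_nonneg_left (hy i) (sub_nonneg.2 ht.2),
      mul_le_mul_of_nonneg_left (hz i) ht.1]
  choose! ψa hψa using fun t (ht : t ∈ Icc (0 : ℝ) 1) => exists_min S hε D0 hm hm1 (hpR t ht)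
  choose! ψb hψb using fun t (ht : t ∈ Icc (0 : ℝ) 1) => exists_min S hε D1 hm hm1 (hpR t ht)
  have hsub : ∀ {ϖ : E → ℝ} (_ : Dens ρ K ϖ) (ψ : ℝ → I → ℝ),
      (∀ t ∈ Icc (0 : ℝ) 1, ∀ ψ', dualF ε ρ ϖ m (p t) (ψ t) ≤ dualF ε ρ ϖ m (p t) ψ') →
      ∀ t ∈ Icc (0 : ℝ) 1, ∀ t' ∈ Icc (0 : ℝ) 1, dualF ε ρ ϖ m (p t) (ψ t) + (t' - t) *
        ∑ i, ∫ x, cell ε (p t) (ψ t) i x * ⟪x, z i - y i⟫ * ϖ x ∂ρ ≤
        dualF ε ρ ϖ m (p t') (ψ t') := by
    intro ϖ D ψ hψ t ht t' _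
    refine le_trans (le_of_eq ?_) (subgrad S hε D (foc S hε D (hψ t ht)) (p t') (ψ t'))
    congr 1
    rw [Finset.mul_sum]
    refine Finset.sum_congr rfl fun i _ => ?_
    rw [← integral_const_mul]
    congr 1; ext x
    have e : p t' i - p t i = (t' - t) • (z i - y i) := by simp only [hp]; module
    rw [e, real_inner_smul_right]; ring
  have key := telescope (hsub D0 ψa hψa) (hsub D1 ψb hψb)
    (L := s * (13 * (∫ x, g x ^ 2 ∂ρ) / lam + 440 * R ^ 2 * lam * ∑ i, m i * ‖z i - y i‖ ^ 2))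
    (fun t ht => by
      have f0 := foc S hε D0 (hψa t ht)
      have f1 := foc S hε D1 (hψb t ht)
      simp only [mul_one] at f0 ⊢
      have := bary_stab S (cells_cell hε K (p t) (ψa t) (ψb t)) hg hs hsg
        (fun i => by rw [f0, f1]) (fun i => z i - y i) hlam
      simpa only [f0] using this)
  have p0 : p 0 = y := by ext i; simp [hp]
  have p1 : p 1 = z := by ext i; simp [hp]
  have m0 : (0 : ℝ) ∈ Icc (0 : ℝ) 1 := ⟨le_rfl, zero_le_one⟩
  have m1 : (1 : ℝ) ∈ Icc (0 : ℝ) 1 := ⟨zero_le_one, le_rfl⟩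
  have b1 := hψb 1 m1
  have a1 := hψa 1 m1 (ψb 1)
  have b0 := hψb 0 m0 ψ0
  have a0 := h0 (ψa 0)
  simp only [p0, p1] at key b1 a1 b0
  refine ⟨ψb 1, b1, le_of_mul_le_mul_left ?_ hs⟩
  rw [dualF_pert S hg s m y ψ0] at b0
  rw [dualF_pert S hg s m z (ψb 1)] at key
  linarith

/-- Lipschitz stability of the potentials. -/
lemma var_bound (S : Setup ρ K R) (hε : 0 < ε) {m : I → ℝ} (hm : ∀ i, 0 < m i)
    (hm1 : ∑ i, m i = 1) {y z : I → E} (hy : ∀ i, ‖y i‖ ≤ R) (hz : ∀ i, ‖z i‖ ≤ R) {ψ0 ψ1 : I → ℝ}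
    (h0 : ∀ ψ, dualF ε ρ (fun _ => 1) m y ψ0 ≤ dualF ε ρ (fun _ => 1) m y ψ)
    (h1 : ∀ ψ, dualF ε ρ (fun _ => 1) m z ψ1 ≤ dualF ε ρ (fun _ => 1) m z ψ) :
    ∃ c, ∫ x, (pot ε z ψ1 x - pot ε y ψ0 x - c) ^ 2 ∂ρ ≤
      45760 * R ^ 2 * ∑ i, m i * ‖z i - y i‖ ^ 2 := by
  have hR := S.R_pos
  obtain ⟨C, C0, hC⟩ := strong_conv (ρ := ρ) (K := K) (R := R) (2 * R ^ 2) (by positivity)
  set c := ∫ x, (pot ε z ψ1 x - pot ε y ψ0 x) ∂ρ with hc
  set g : E → ℝ := fun x => pot ε z ψ1 x - pot ε y ψ0 x - c with hg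
  have cg : Continuous g := by simp only [hg]; fun_prop
  have g0 : ∫ x, g x ∂ρ = 0 := by
    simp only [hg]
    rw [S.sub (by fun_prop) (by fun_prop), S.const, hc, sub_self]
  have gb : ∀ x ∈ K, |g x| ≤ 4 * R ^ 2 := fun x hx => by
    have u1 : ∫ _, (g x - 4 * R ^ 2) ∂ρ ≤ ∫ y, g y ∂ρ := S.mono (by fun_prop) cg fun x' hx' => by
      simp only [hg]
      linarith [pot_osc S hε hz ψ1 x hx x' hx', pot_osc S hε hy ψ0 x' hx' x hx]
    have u2 : ∫ y, g y ∂ρ ≤ ∫ _, (g x + 4 * R ^ 2) ∂ρ := S.mono cg (by fun_prop) fun x' hx' => by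
      simp only [hg]
      linarith [pot_osc S hε hz ψ1 x' hx' x hx, pot_osc S hε hy ψ0 x hx x' hx']
    rw [S.const, g0] at u1 u2
    rw [abs_le]; constructor <;> linarith
  refine ⟨c, ?_⟩
  change ∫ x, g x ^ 2 ∂ρ ≤ _
  set Q := ∫ x, g x ^ 2 ∂ρ with hQ
  set V := ∑ i, m i * ‖z i - y i‖ ^ 2 with hV
  have main : ∀ s : ℝ, 0 < s → s ≤ 1 / (8 * R ^ 2) → s ≤ 1 / (8 * R ^ 4) →
      Q ≤ 45760 * R ^ 2 * V + 16 * C * R ^ 4 * s := by
    intro s hs hs1 hs2
    obtain ⟨ψ', hψ', hmix⟩ := mixed S hε hm hm1 hy hz cg g0 hs (fun x hx => by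
      rw [abs_mul, abs_of_pos hs]
      calc s * |g x| ≤ 1 / (8 * R ^ 2) * (4 * R ^ 2) := by gcongr; exact gb x hx
        _ = 1 / 2 := by field_simp; norm_num) (lam := 52) (by norm_num) h0
    obtain ⟨x0, hx0⟩ := S.nonempty
    have n1 : ∫ x, pot ε z ψ1 x * g x ∂ρ - ∫ x, pot ε z ψ' x * g x ∂ρ ≤ 16 * R ^ 4 := by
      have u : ∫ x, (pot ε z ψ1 x * g x - pot ε z ψ' x * g x -
          (pot ε z ψ1 x0 - pot ε z ψ' x0) * g x) ∂ρ ≤ ∫ _, 16 * R ^ 4 ∂ρ :=
        S.mono (by fun_prop) (by fun_prop) fun x hx => by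
          have v1 : |pot ε z ψ1 x - pot ε z ψ' x - (pot ε z ψ1 x0 - pot ε z ψ' x0)| ≤
              4 * R ^ 2 := by
            rw [abs_le]
            constructor <;> linarith [pot_osc S hε hz ψ1 x hx x0 hx0,
              pot_osc S hε hz ψ1 x0 hx0 x hx, pot_osc S hε hz ψ' x hx x0 hx0,
              pot_osc S hε hz ψ' x0 hx0 x hx]
          have v2 := mul_le_mul v1 (gb x hx) (abs_nonneg _) (by positivity)
          rw [← abs_mul] at v2
          nlinarith [le_abs_self ((pot ε z ψ1 x - pot ε z ψ' x -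
            (pot ε z ψ1 x0 - pot ε z ψ' x0)) * g x)]
      rw [S.const, S.sub (by fun_prop) (by fun_prop), S.sub (by fun_prop) (by fun_prop),
        integral_const_mul, g0] at u
      linarith
    have n2 : ∫ x, ((pot ε z ψ1 x + pot ε z ψ' x) / 2 -
        pot ε z (fun i => (ψ1 i + ψ' i) / 2) x) ∂ρ ≤ 8 * R ^ 4 * s := by
      have u1 := hψ' ψ1
      rw [dualF_pert S cg, dualF_pert S cg] at u1
      have u2 := h1 fun i => (ψ1 i + ψ' i) / 2
      have u3 : ∑ i, m i * ((ψ1 i + ψ' i) / 2) = (∑ i, m i * ψ1 i + ∑ i, m i * ψ' i) / 2 := by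
        rw [← Finset.sum_add_distrib, Finset.sum_div]
        exact Finset.sum_congr rfl fun i _ => by ring
      simp only [dualF, mul_one, u3] at u1 u2
      rw [S.sub (by fun_prop) (by fun_prop), integral_div, S.add (by fun_prop) (by fun_prop)]
      nlinarith [mul_le_mul_of_nonneg_left n1 hs.le]
    have n3 : 8 * R ^ 4 * s ≤ 1 := by
      rw [le_div_iff₀ (by positivity)] at hs2; linarith
    obtain ⟨c', hc'⟩ := hC S (continuous_pot ε z ψ1) (continuous_pot ε z ψ')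
      (continuous_pot ε z fun i => (ψ1 i + ψ' i) / 2) (fun x _ y _ => pot_mid hε z ψ1 ψ' x y)
      (pot_osc S hε hz _) (pot_osc S hε hz _) (pot_osc S hε hz _) (n2.trans n3)
    have n4 : ∫ x, (pot ε z ψ' x - pot ε z ψ1 x - c') ^ 2 ∂ρ ≤ C * (8 * R ^ 4 * s) :=
      hc'.trans (by gcongr)
    have n5 : Q ≤ ∫ x, (pot ε z ψ' x * g x - pot ε y ψ0 x * g x + (1 / 4 * g x ^ 2 +
        (pot ε z ψ' x - pot ε z ψ1 x - c') ^ 2) - (c + c') * g x) ∂ρ :=
      S.mono (by fun_prop) (by fun_prop) fun x _ => by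
        have e : pot ε y ψ0 x = pot ε z ψ1 x - g x - c := by simp only [hg]; ring
        rw [e]
        nlinarith [sq_nonneg (g x / 2 + (pot ε z ψ' x - pot ε z ψ1 x - c'))]
    rw [S.sub (by fun_prop) (by fun_prop), S.add (by fun_prop) (by fun_prop),
      S.sub (by fun_prop) (by fun_prop), S.add (by fun_prop) (by fun_prop), integral_const_mul,
      integral_const_mul, g0, ← hQ] at n5
    nlinarith
  refine le_of_forall_pos_le_add fun η hη => ?_
  set s := min (min (1 / (8 * R ^ 2)) (1 / (8 * R ^ 4))) (η / (16 * C * R ^ 4 + 1)) with hs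
  have s0 : 0 < s := lt_min (lt_min (by positivity) (by positivity)) (by positivity)
  refine (main s s0 ((min_le_left _ _).trans (min_le_left _ _))
    ((min_le_left _ _).trans (min_le_right _ _))).trans ?_
  have : s ≤ η / (16 * C * R ^ 4 + 1) := min_le_right _ _
  rw [le_div_iff₀ (by positivity)] at this
  nlinarith

end Crest.Agent.R82
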