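import Crest.Agent.R82.Monge
import Crest.Agent.R82.Var

set_option autoImplicit false
set_option linter.unusedSectionVars false

namespace Crest.Agent.R82

open MeasureTheory Set Filter Topology Crest.AnalysisR.OT
open scoped ENNReal RealInnerProductSpace

variable {d : ℕ}

local notation "E" => EuclideanSpace ℝ (Fin d)

variable {ρ : Measure (EuclideanSpace ℝ (Fin d))} {K : Set (EuclideanSpace ℝ (Fin d))} {R : ℝ}

lemma integrable_of_cont {X : Type*} [NormedAddCommGroup X] [ProperSpace X] [MeasurableSpace X]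
    [OpensMeasurableSpace X] {μ : Measure X} [IsFiniteMeasure μ] {R' : ℝ}
    (hμ : ∀ᵐ y ∂μ, ‖y‖ ≤ R') {f : X → ℝ} (hf : Continuous f) : Integrable f μ := by
  have h : IntegrableOn f (Metric.closedBall 0 R') μ :=
    hf.continuousOn.integrableOn_compact (isCompact_closedBall _ _)
  rwa [IntegrableOn, Measure.restrict_eq_self_of_ae_mem (by simpa using hμ)] at h

lemma gap (j : Fin d) (S : Setup ρ K R) (hac : ρ ≪ volume) {μ : Measure E}
    [IsProbabilityMeasure μ] (hμ : ∀ᵐ y ∂μ, ‖y‖ ≤ R) {T : E → E} (hT : IsOptimalMap ρ μ T)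
    {I : Type*} [Fintype I] [Nonempty I] {m : I → ℝ} (hm : ∀ i, 0 < m i)
    {μi : I → Measure E} (hp : ∀ i, IsProbabilityMeasure (μi i))
    {y : I → E} (hy : ∀ i, ‖y i‖ ≤ R) {η : ℝ} (hη : 0 < η)
    (hμi : ∀ i, ∀ᵐ z ∂μi i, ‖z - y i‖ ≤ η) (hm1 : ∑ i, m i = 1)
    (hsum : μ = ∑ i, ENNReal.ofReal (m i) • μi i) {ε : ℝ} (hε : 0 < ε) {ψ : I → ℝ}
    (hψ : ∀ ψ', dualF ε ρ (fun _ => 1) m y ψ ≤ dualF ε ρ (fun _ => 1) m y ψ') :
    ∃ e : E → ℝ, Integrable e ρ ∧ ∫ x, e x ∂ρ ≤ ε * Fintype.card I + 4 * R * η ∧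
      ∀ x, ∀ x' ∈ K, pot ε y ψ x + ⟪x' - x, T x⟫ - e x ≤ pot ε y ψ x' := by
  have := S.prob
  have hR := S.R_pos
  have f0 := foc S hε (dens_one S) hψ
  simp only [mul_one] at f0
  have C := cells_cell hε K y ψ ψ
  have hM := monge_ge j S hac hμ hT C.cont (fun i x => (C.pos i x).le) C.sum hp hy hη hμi
    (by simp only [f0]; exact hsum)
  set ψt : E → ℝ := fun u => Finset.univ.inf' Finset.univ_nonempty
    fun i => ψ i + R * ‖u - y i‖ with hψt
  have cψt : Continuous ψt := Continuous.finset_inf'_apply _ fun i _ => by fun_prop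
  have hle : ∀ u i, ψt u ≤ ψ i + R * ‖u - y i‖ := fun u i =>
    Finset.inf'_le (fun i => ψ i + R * ‖u - y i‖) (Finset.mem_univ i)
  have iμ : Integrable ψt μ := integrable_of_cont hμ cψt
  have iT : Integrable (fun x => ψt (T x)) ρ := by
    rw [← hT.2.1] at iμ
    exact (integrable_map_measure cψt.aestronglyMeasurable hT.1.aemeasurable).1 iμ
  have iI := integrable_inner_map S hT.1 (ae_norm_map hμ hT.1 hT.2.1)
  have iP := S.integrable (continuous_pot ε y ψ)
  have iPT : Integrable (fun x => pot ε y ψ x + ψt (T x)) ρ := iP.add iT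
  refine ⟨fun x => pot ε y ψ x + ψt (T x) - ⟪x, T x⟫, iPT.sub iI, ?_, fun x x' hx' => ?_⟩
  · rw [integral_sub iPT iI, integral_add iP iT]
    have iμi : ∀ i, Integrable ψt (μi i) := fun i => by
      refine integrable_of_cont (R' := R + η) ?_ cψt
      filter_upwards [hμi i] with z hz
      have := norm_add_le (y i) (z - y i)
      rw [add_sub_cancel] at this
      linarith [hy i]
    have h1 : ∫ x, ψt (T x) ∂ρ ≤ ∑ i, m i * ψ i + R * η := by
      rw [← integral_map hT.1.aemeasurable cψt.aestronglyMeasurable, hT.2.1, hsum,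
        integral_finsetSum_measure fun i _ => (iμi i).smul_measure ENNReal.ofReal_ne_top]
      have : ∀ i, ∫ a, ψt a ∂(ENNReal.ofReal (m i) • μi i) ≤ m i * ψ i + m i * (R * η) := by
        intro i
        rw [integral_smul_measure, ENNReal.toReal_ofReal (hm i).le, smul_eq_mul, ← mul_add]
        refine mul_le_mul_of_nonneg_left ?_ (hm i).le
        have : ∫ a, ψt a ∂μi i ≤ ∫ _, (ψ i + R * η) ∂μi i := by
          refine integral_mono_ae (iμi i) (integrable_const _) ?_
          filter_upwards [hμi i] with z hz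
          exact (hle z i).trans (by gcongr)
        simpa using this
      refine (Finset.sum_le_sum fun i _ => this i).trans (le_of_eq ?_)
      rw [Finset.sum_add_distrib, ← Finset.sum_mul, hm1, one_mul]
    have h2 : ∫ x, pot ε y ψ x ∂ρ ≤ ∫ x, (∑ i, (cell ε y ψ i x * ⟪x, y i⟫ - ψ i * cell ε y ψ i x) +
        ε * Fintype.card I) ∂ρ :=
      S.mono (by fun_prop) (by fun_prop) fun x _ => by
        refine (lse_le hε _).trans (le_of_eq ?_)
        congr 1
        exact Finset.sum_congr rfl fun i _ => by rw [cell]; ring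
    rw [S.add (by fun_prop) (by fun_prop), S.const, S.sum (fun i => by fun_prop)] at h2
    have h3 : ∀ i, ∫ x, (cell ε y ψ i x * ⟪x, y i⟫ - ψ i * cell ε y ψ i x) ∂ρ =
        ∫ x, cell ε y ψ i x * ⟪x, y i⟫ ∂ρ - m i * ψ i := fun i => by
      rw [S.sub (by fun_prop) (by fun_prop), integral_const_mul, f0]; ring
    simp only [h3, Finset.sum_sub_distrib] at h2
    linarith
  · obtain ⟨i, -, hi⟩ := Finset.exists_mem_eq_inf' Finset.univ_nonempty
      fun i => ψ i + R * ‖T x - y i‖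
    have h1 : ψt (T x) = ψ i + R * ‖T x - y i‖ := hi
    have h2 := le_lse hε (fun i => ⟪x', y i⟫ - ψ i) i
    have h3 : ⟪x', T x - y i⟫ ≤ R * ‖T x - y i‖ :=
      (real_inner_le_norm _ _).trans (by gcongr; exact S.bdd x' hx')
    rw [inner_sub_right] at h3
    simp only
    rw [inner_sub_left, h1]
    change _ ≤ pot ε y ψ x' at h2
    linarith

lemma discretize {Y : Set E} (hY : IsCompact Y) (hYn : Y.Nonempty) (hYR : ∀ y ∈ Y, ‖y‖ ≤ R)
    {μ ν : Measure E} (hμ : IsProbabilityOn Y μ) (hν : IsProbabilityOn Y ν)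
    {π : Measure (E × E)} (hπ : IsPairCoupling μ ν π) {η : ℝ} (hη : 0 < η) :
    ∃ (I : Type) (_ : Fintype I) (_ : Nonempty I) (m : I → ℝ) (y z : I → E)
      (μi νi : I → Measure E), (∀ i, 0 < m i) ∧ ∑ i, m i = 1 ∧ (∀ i, ‖y i‖ ≤ R) ∧
      (∀ i, ‖z i‖ ≤ R) ∧ (∀ i, IsProbabilityMeasure (μi i)) ∧ (∀ i, IsProbabilityMeasure (νi i)) ∧
      (∀ i, ∀ᵐ u ∂μi i, ‖u - y i‖ ≤ η) ∧ (∀ i, ∀ᵐ u ∂νi i, ‖u - z i‖ ≤ η) ∧
      μ = ∑ i, ENNReal.ofReal (m i) • μi i ∧ ν = ∑ i, ENNReal.ofReal (m i) • νi i ∧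
      ∑ i, m i * ‖z i - y i‖ ^ 2 ≤ 2 * ∫ p, ‖p.1 - p.2‖ ^ 2 ∂π + 8 * η ^ 2 := by
  have := hμ.1
  have hπp : IsProbabilityMeasure π := ⟨by
    have := congrArg (fun m : Measure E => m univ) hπ.1
    simpa [Measure.map_apply measurable_fst MeasurableSet.univ] using this⟩
  have a1 : ∀ᵐ p ∂π, p.1 ∈ Y := by
    refine ae_of_ae_map (p := fun y => y ∈ Y) measurable_fst.aemeasurable ?_
    rw [hπ.1]; exact hμ.2
  have a2 : ∀ᵐ p ∂π, p.2 ∈ Y := by
    refine ae_of_ae_map (p := fun y => y ∈ Y) measurable_snd.aemeasurable ?_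
    rw [hπ.2]; exact hν.2
  obtain ⟨N, c, ℓ, hℓ, hc, hd⟩ := exists_partition (hY.prod hY) (hYn.prod hYn) hη
  set I := {k : Fin (N + 1) // π (ℓ ⁻¹' {k}) ≠ 0} with hI
  set m : I → ℝ := fun i => π.real (ℓ ⁻¹' {i.1}) with hm
  set πi : I → Measure (E × E) := fun i => (π (ℓ ⁻¹' {i.1}))⁻¹ • π.restrict (ℓ ⁻¹' {i.1})
    with hπi
  have hpi : ∀ i, IsProbabilityMeasure (πi i) := fun i =>
    ⟨by simp [hπi, ENNReal.inv_mul_cancel i.2 (measure_ne_top _ _)]⟩
  have hdec : π = ∑ i, ENNReal.ofReal (m i) • πi i := by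
    have e1 : ∀ i : I, ENNReal.ofReal (m i) • πi i = π.restrict (ℓ ⁻¹' {i.1}) := fun i => by
      simp only [hm, hπi, ofReal_measureReal (measure_ne_top _ _), smul_smul,
        ENNReal.mul_inv_cancel i.2 (measure_ne_top _ _), one_smul]
    simp only [e1]
    conv_lhs => rw [← sum_restrict_fiber π hℓ]
    rw [← Fintype.sum_subtype_add_sum_subtype (fun k => π (ℓ ⁻¹' {k}) ≠ 0)
      (fun k => π.restrict (ℓ ⁻¹' {k}))]
    have : ∑ i : {k // ¬ π (ℓ ⁻¹' {k}) ≠ 0}, π.restrict (ℓ ⁻¹' {i.1}) = 0 :=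
      Finset.sum_eq_zero fun i _ => Measure.restrict_eq_zero.2 (not_not.1 i.2)
    rw [this, add_zero]
  have hnear : ∀ i, ∀ᵐ p ∂πi i, dist p (c i.1) < η := fun i => by
    refine Measure.ae_smul_measure ?_ _
    filter_upwards [ae_restrict_mem (hℓ (measurableSet_singleton i.1)), ae_restrict_of_ae a1,
      ae_restrict_of_ae a2] with p hp h1 h2
    have := hd p ⟨h1, h2⟩
    rwa [show ℓ p = i.1 from hp] at this
  have hm0 : ∀ i, 0 < m i := fun i => ENNReal.toReal_pos i.2 (measure_ne_top _ _)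
  have hint : ∀ {f : E × E → ℝ}, Continuous f → ∀ i, Integrable f (πi i) := fun hf i => by
    refine integrable_of_cont (R' := ‖c i.1‖ + η) ?_ hf
    filter_upwards [hnear i] with p hp
    rw [dist_eq_norm] at hp
    have := norm_add_le (c i.1) (p - c i.1)
    rw [add_sub_cancel] at this
    linarith
  have hsplit : ∀ {f : E × E → ℝ}, Continuous f → ∫ p, f p ∂π = ∑ i, m i * ∫ p, f p ∂πi i := by
    intro f hf
    conv_lhs => rw [hdec]
    rw [integral_finsetSum_measure fun i _ => (hint hf i).smul_measure ENNReal.ofReal_ne_top]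
    refine Finset.sum_congr rfl fun i _ => ?_
    rw [integral_smul_measure, ENNReal.toReal_ofReal (hm0 i).le, smul_eq_mul]
  have hm1 : ∑ i, m i = 1 := by
    have := hsplit (f := fun _ => 1) continuous_const
    simpa using this.symm
  have hne : Nonempty I := by
    by_contra h
    rw [not_nonempty_iff] at h
    simp at hm1
  refine ⟨I, inferInstance, hne, m, fun i => (c i.1).1, fun i => (c i.1).2,
    fun i => (πi i).map Prod.fst, fun i => (πi i).map Prod.snd, hm0, hm1,
    fun i => hYR _ (hc _).1, fun i => hYR _ (hc _).2,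
    fun i => Measure.isProbabilityMeasure_map measurable_fst.aemeasurable,
    fun i => Measure.isProbabilityMeasure_map measurable_snd.aemeasurable,
    fun i => ?_, fun i => ?_, ?_, ?_, ?_⟩
  · rw [ae_map_iff measurable_fst.aemeasurable (measurableSet_le (by fun_prop) measurable_const)]
    filter_upwards [hnear i] with p hp
    rw [← dist_eq_norm]
    exact (le_max_left _ _).trans hp.le
  · rw [ae_map_iff measurable_snd.aemeasurable (measurableSet_le (by fun_prop) measurable_const)]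
    filter_upwards [hnear i] with p hp
    rw [← dist_eq_norm]
    exact (le_max_right _ _).trans hp.le
  · rw [← hπ.1]
    conv_lhs => rw [hdec]
    rw [Measure.map_finset_sum' measurable_fst.aemeasurable]
    simp only [Measure.map_smul]
  · rw [← hπ.2]
    conv_lhs => rw [hdec]
    rw [Measure.map_finset_sum' measurable_snd.aemeasurable]
    simp only [Measure.map_smul]
  · rw [hsplit (by fun_prop), Finset.mul_sum]
    have : ∀ i : I, m i * ‖(c i.1).2 - (c i.1).1‖ ^ 2 ≤
        2 * (m i * ∫ p, ‖p.1 - p.2‖ ^ 2 ∂πi i) + m i * (8 * η ^ 2) := by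
      intro i
      have h1 : ∫ _, ‖(c i.1).2 - (c i.1).1‖ ^ 2 ∂πi i ≤
          ∫ p, (2 * ‖p.1 - p.2‖ ^ 2 + 8 * η ^ 2) ∂πi i := by
        refine integral_mono_ae (integrable_const _) (hint (by fun_prop) i) ?_
        filter_upwards [hnear i] with p hp
        have b1 : ‖p.1 - (c i.1).1‖ ≤ η := by
          rw [← dist_eq_norm]; exact (le_max_left _ _).trans hp.le
        have b2 : ‖p.2 - (c i.1).2‖ ≤ η := by
          rw [← dist_eq_norm]; exact (le_max_right _ _).trans hp.le
        have b3 : ‖(c i.1).2 - (c i.1).1‖ ≤ ‖p.1 - p.2‖ + 2 * η := by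
          have e : (c i.1).2 - (c i.1).1 =
              -(p.1 - p.2) + (p.1 - (c i.1).1) - (p.2 - (c i.1).2) := by abel
          rw [e]
          refine (norm_sub_le _ _).trans ?_
          have := norm_add_le (-(p.1 - p.2)) (p.1 - (c i.1).1)
          rw [norm_neg] at this
          linarith
        calc ‖(c i.1).2 - (c i.1).1‖ ^ 2 ≤ (‖p.1 - p.2‖ + 2 * η) ^ 2 := by gcongr
          _ ≤ _ := by nlinarith [sq_nonneg (‖p.1 - p.2‖ - 2 * η)]
      rw [integral_add (hint (by fun_prop) i) (integrable_const _), integral_const_mul] at h1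
      simp only [integral_const, probReal_univ, smul_eq_mul, one_mul] at h1
      nlinarith [mul_le_mul_of_nonneg_left h1 (hm0 i).le]
    refine (Finset.sum_le_sum fun i _ => this i).trans (le_of_eq ?_)
    rw [Finset.sum_add_distrib, ← Finset.sum_mul, hm1, one_mul]

end Crest.Agent.R82
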