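import Crest.Agent.R82.Cells

set_option autoImplicit false
set_option linter.unusedSectionVars false

namespace Crest.Agent.R82

open MeasureTheory Set Filter Topology
open scoped RealInnerProductSpace

section lse
variable {I : Type*} [Fintype I] [Nonempty I] {ε : ℝ}

/-- soft maximum -/
noncomputable def lse (ε : ℝ) (a : I → ℝ) : ℝ := ε * Real.log (∑ i, Real.exp (a i / ε))

/-- soft weights -/
noncomputable def sw (ε : ℝ) (a : I → ℝ) (i : I) : ℝ := Real.exp ((a i - lse ε a) / ε)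

lemma sum_exp_pos (ε : ℝ) (a : I → ℝ) : 0 < ∑ i, Real.exp (a i / ε) :=
  Finset.sum_pos (fun _ _ => Real.exp_pos _) Finset.univ_nonempty

lemma exp_lse (hε : 0 < ε) (a : I → ℝ) : Real.exp (lse ε a / ε) = ∑ i, Real.exp (a i / ε) := by
  rw [lse, mul_div_cancel_left₀ _ hε.ne', Real.exp_log (sum_exp_pos ε a)]

lemma sw_pos (ε : ℝ) (a : I → ℝ) (i : I) : 0 < sw ε a i := Real.exp_pos _

lemma sum_sw (hε : 0 < ε) (a : I → ℝ) : ∑ i, sw ε a i = 1 := by
  simp only [sw, sub_div, Real.exp_sub, ← Finset.sum_div, ← exp_lse hε]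
  exact div_self (Real.exp_pos _).ne'

lemma sw_le_one (hε : 0 < ε) (a : I → ℝ) (i : I) : sw ε a i ≤ 1 := by
  rw [← sum_sw hε a]
  exact Finset.single_le_sum (f := sw ε a) (fun j _ => (sw_pos ε a j).le) (Finset.mem_univ i)

lemma le_lse (hε : 0 < ε) (a : I → ℝ) (i : I) : a i ≤ lse ε a := by
  have := sw_le_one hε a i
  rw [sw, Real.exp_le_one_iff, div_nonpos_iff] at this
  rcases this with h | h <;> linarith [h.1, h.2]

lemma exp_lse_sub (hε : 0 < ε) (a b : I → ℝ) :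
    Real.exp ((lse ε b - lse ε a) / ε) = ∑ i, sw ε a i * Real.exp ((b i - a i) / ε) := by
  rw [sub_div, Real.exp_sub, exp_lse hε b, Finset.sum_div]
  refine Finset.sum_congr rfl fun i _ => ?_
  rw [sw, ← Real.exp_sub, ← Real.exp_add]
  congr 1; ring

lemma lse_sub (hε : 0 < ε) (a b : I → ℝ) :
    lse ε a + ∑ i, sw ε a i * (b i - a i) ≤ lse ε b := by
  set c := ∑ i, sw ε a i * (b i - a i) with hc
  have h1 : Real.exp (c / ε) ≤ Real.exp ((lse ε b - lse ε a) / ε) := by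
    rw [exp_lse_sub hε]
    calc Real.exp (c / ε)
        = ∑ i, sw ε a i * (Real.exp (c / ε) * ((b i - a i - c) / ε + 1)) := by
          have e : ∀ i, sw ε a i * (Real.exp (c / ε) * ((b i - a i - c) / ε + 1)) =
              (Real.exp (c / ε) / ε) * (sw ε a i * (b i - a i)) +
              (Real.exp (c / ε) * (1 - c / ε)) * sw ε a i := fun i => by ring
          simp only [e, Finset.sum_add_distrib, ← Finset.mul_sum, sum_sw hε, ← hc]
          ring
      _ ≤ _ := by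
          refine Finset.sum_le_sum fun i _ => mul_le_mul_of_nonneg_left ?_ (sw_pos _ _ _).le
          calc Real.exp (c / ε) * ((b i - a i - c) / ε + 1)
              ≤ Real.exp (c / ε) * Real.exp ((b i - a i - c) / ε) := by
                gcongr; exact Real.add_one_le_exp _
            _ = _ := by rw [← Real.exp_add]; congr 1; ring
  rw [Real.exp_le_exp, div_le_div_iff_of_pos_right hε] at h1
  linarith

lemma lse_le (hε : 0 < ε) (a : I → ℝ) :
    lse ε a ≤ ∑ i, sw ε a i * a i + ε * Fintype.card I := by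
  have h : ∀ i, sw ε a i * lse ε a ≤ sw ε a i * a i + ε := by
    intro i
    have h1 := Real.add_one_le_exp (-((a i - lse ε a) / ε))
    have h2 : sw ε a i * Real.exp (-((a i - lse ε a) / ε)) = 1 := by
      rw [sw, ← Real.exp_add]; simp
    have h3 := mul_le_mul_of_nonneg_left h1 (mul_pos hε (sw_pos ε a i)).le
    have h4 : ε * sw ε a i * (-((a i - lse ε a) / ε) + 1) =
        sw ε a i * lse ε a - sw ε a i * a i + ε * sw ε a i := by field_simp; ring
    rw [h4, mul_assoc, h2] at h3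
    nlinarith [mul_pos hε (sw_pos ε a i)]
  have := Finset.sum_le_sum fun i (_ : i ∈ Finset.univ) => h i
  rw [← Finset.sum_mul, sum_sw hε, one_mul, Finset.sum_add_distrib] at this
  simpa [mul_comm] using this

lemma lse_mid (hε : 0 < ε) (a b c : I → ℝ) (hc : ∀ i, c i = (a i + b i) / 2) :
    lse ε c ≤ (lse ε a + lse ε b) / 2 := by
  have h1 := lse_sub hε c a
  have h2 := lse_sub hε c b
  have : ∑ i, sw ε c i * (a i - c i) + ∑ i, sw ε c i * (b i - c i) = 0 := by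
    rw [← Finset.sum_add_distrib]
    exact Finset.sum_eq_zero fun i _ => by rw [hc i]; ring
  linarith

lemma sw_mid (hε : 0 < ε) (a b c : I → ℝ) (hc : ∀ i, c i = (a i + b i) / 2) (i : I) :
    sw ε a i * sw ε b i ≤ sw ε c i ^ 2 := by
  simp only [sw, sq, ← Real.exp_add, Real.exp_le_exp, ← add_div]
  rw [div_le_div_iff_of_pos_right hε]
  linarith [lse_mid hε a b c hc, hc i]

lemma lse_le_add (hε : 0 < ε) (a b : I → ℝ) {c : ℝ} (h : ∀ i, a i ≤ b i + c) :
    lse ε a ≤ lse ε b + c := by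
  have h1 := lse_sub hε a b
  have h2 : ∑ i, sw ε a i * (-c) ≤ ∑ i, sw ε a i * (b i - a i) :=
    Finset.sum_le_sum fun i _ => mul_le_mul_of_nonneg_left (by linarith [h i]) (sw_pos _ _ _).le
  rw [← Finset.sum_mul, sum_sw hε] at h2
  linarith

lemma lse_update [DecidableEq I] (hε : 0 < ε) (a b : I → ℝ) (i : I) (r : ℝ)
    (hb : ∀ j, b j = a j - if j = i then ε * r else 0) :
    lse ε b ≤ lse ε a + ε * (Real.exp (-r) - 1) * sw ε a i := by
  have h1 := exp_lse_sub hε a b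
  have h2 : ∑ j, sw ε a j * Real.exp ((b j - a j) / ε) = 1 + (Real.exp (-r) - 1) * sw ε a i := by
    have : ∀ j, sw ε a j * Real.exp ((b j - a j) / ε) =
        sw ε a j + if j = i then (Real.exp (-r) - 1) * sw ε a i else 0 := by
      intro j
      rw [hb j]
      split_ifs with h
      · subst h
        have : (a j - ε * r - a j) / ε = -r := by field_simp; ring
        rw [this]; ring
      · simp
    simp only [this, Finset.sum_add_distrib, sum_sw hε, Finset.sum_ite_eq', Finset.mem_univ,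
      if_true]
  have h3 := Real.add_one_le_exp ((lse ε b - lse ε a) / ε)
  rw [h1, h2] at h3
  have h4 : (lse ε b - lse ε a) / ε ≤ (Real.exp (-r) - 1) * sw ε a i := by linarith
  rw [div_le_iff₀ hε] at h4
  linarith

lemma continuous_lse (ε : ℝ) : Continuous (lse ε : (I → ℝ) → ℝ) := by
  unfold lse
  exact continuous_const.mul (Continuous.log (by fun_prop) fun a => (sum_exp_pos ε a).ne')

end lse

variable {E : Type*} [NormedAddCommGroup E] [InnerProductSpace ℝ E] [MeasurableSpace E]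
  [OpensMeasurableSpace E] {ρ : Measure E} {K : Set E} {R : ℝ}
  {I : Type*} [Fintype I] [Nonempty I] {ε : ℝ}

/-- the regularised potential -/
noncomputable def pot (ε : ℝ) (p : I → E) (ψ : I → ℝ) (x : E) : ℝ :=
  lse ε fun i => ⟪x, p i⟫ - ψ i

/-- the soft cells -/
noncomputable def cell (ε : ℝ) (p : I → E) (ψ : I → ℝ) (i : I) (x : E) : ℝ :=
  sw ε (fun i => ⟪x, p i⟫ - ψ i) i

@[fun_prop]
lemma continuous_pot (ε : ℝ) (p : I → E) (ψ : I → ℝ) : Continuous (pot ε p ψ) :=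
  (continuous_lse ε).comp (by fun_prop)

@[fun_prop]
lemma continuous_cell (ε : ℝ) (p : I → E) (ψ : I → ℝ) (i : I) : Continuous (cell ε p ψ i) := by
  have := continuous_pot ε p ψ
  unfold pot at this
  unfold cell sw
  fun_prop

lemma inner_mid (x y z : E) : ⟪mid x y, z⟫ = (⟪x, z⟫ + ⟪y, z⟫) / 2 := by
  rw [mid, inner_add_left, real_inner_smul_left, real_inner_smul_left]; ring

lemma cells_cell (hε : 0 < ε) (K : Set E) (p : I → E) (ψ ψ' : I → ℝ) :
    Cells K (cell ε p ψ) (cell ε p ψ') (cell ε p fun i => (ψ i + ψ' i) / 2) where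
  cont := continuous_cell ε p _
  cont' := continuous_cell ε p _
  cont'' := continuous_cell ε p _
  pos := fun _ _ => sw_pos _ _ _
  pos' := fun _ _ => sw_pos _ _ _
  pos'' := fun _ _ => sw_pos _ _ _
  sum := fun _ => sum_sw hε _
  sum' := fun _ => sum_sw hε _
  sum'' := fun _ => sum_sw hε _
  hmid := fun i x _ y _ => sw_mid hε _ _ _ (fun j => by rw [inner_mid]; ring) i

lemma pot_mid (hε : 0 < ε) (p : I → E) (ψ ψ' : I → ℝ) (x y : E) :
    pot ε p (fun i => (ψ i + ψ' i) / 2) (mid x y) ≤ (pot ε p ψ x + pot ε p ψ' y) / 2 :=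
  lse_mid hε _ _ _ fun j => by rw [inner_mid]; ring

lemma pot_lip (hε : 0 < ε) {p : I → E} (hp : ∀ i, ‖p i‖ ≤ R) (ψ : I → ℝ) (x y : E) :
    pot ε p ψ x ≤ pot ε p ψ y + R * ‖x - y‖ := by
  refine lse_le_add hε _ _ fun i => ?_
  have h1 : ⟪x - y, p i⟫ ≤ ‖x - y‖ * R :=
    (real_inner_le_norm _ _).trans (by gcongr; exact hp i)
  rw [inner_sub_left] at h1
  linarith

/-- the dual functional -/
noncomputable def dualF (ε : ℝ) (ρ : Measure E) (ϖ : E → ℝ) (m : I → ℝ) (p : I → E)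
    (ψ : I → ℝ) : ℝ :=
  ∫ x, pot ε p ψ x * ϖ x ∂ρ + ∑ i, m i * ψ i

/-- densities -/
structure Dens (ρ : Measure E) (K : Set E) (ϖ : E → ℝ) : Prop where
  cont : Continuous ϖ
  nonneg : ∀ x ∈ K, 0 ≤ ϖ x
  int : ∫ x, ϖ x ∂ρ = 1

lemma int_le_add (S : Setup ρ K R) {ϖ : E → ℝ} (D : Dens ρ K ϖ) {f g : E → ℝ} (hf : Continuous f)
    (hg : Continuous g) {c : ℝ} (h : ∀ x ∈ K, f x ≤ g x + c) :
    ∫ x, f x * ϖ x ∂ρ ≤ ∫ x, g x * ϖ x ∂ρ + c := by
  have cϖ := D.cont
  have : ∫ x, f x * ϖ x ∂ρ ≤ ∫ x, (g x * ϖ x + c * ϖ x) ∂ρ :=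
    S.mono (by fun_prop) (by fun_prop) fun x hx => by
      nlinarith [mul_le_mul_of_nonneg_right (h x hx) (D.nonneg x hx)]
  rwa [S.add (by fun_prop) (by fun_prop), integral_const_mul, D.int, mul_one] at this

lemma exists_min (S : Setup ρ K R) (hε : 0 < ε) {ϖ : E → ℝ} (D : Dens ρ K ϖ) {m : I → ℝ}
    (hm : ∀ i, 0 < m i) (hm1 : ∑ i, m i = 1) {p : I → E} (hp : ∀ i, ‖p i‖ ≤ R) :
    ∃ ψ : I → ℝ, ∀ ψ', dualF ε ρ ϖ m p ψ ≤ dualF ε ρ ϖ m p ψ' := by
  have hR := S.R_pos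
  have cϖ := D.cont
  have hlip : ∀ (ψ ψ' : I → ℝ) (c : ℝ), (∀ i, ψ' i ≤ ψ i + c) →
      ∫ x, pot ε p ψ x * ϖ x ∂ρ ≤ ∫ x, pot ε p ψ' x * ϖ x ∂ρ + c := fun ψ ψ' c h =>
    int_le_add S D (by fun_prop) (by fun_prop) fun x _ =>
      lse_le_add hε _ _ fun i => by linarith [h i]
  have hcont : Continuous (dualF ε ρ ϖ m p) := by
    unfold dualF
    refine Continuous.add (LipschitzWith.continuous (K := 1) ?_) (by fun_prop)
    refine LipschitzWith.of_le_add fun ψ ψ' => hlip _ _ _ fun i => ?_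
    have := dist_le_pi_dist ψ ψ' i
    rw [Real.dist_eq] at this
    linarith [(abs_le.1 this).1]
  have hshift : ∀ (ψ : I → ℝ) (c : ℝ), dualF ε ρ ϖ m p (fun i => ψ i - c) ≤ dualF ε ρ ϖ m p ψ := by
    intro ψ c
    have := hlip (fun i => ψ i - c) ψ c fun i => by linarith
    simp only [dualF, mul_sub, Finset.sum_sub_distrib, ← Finset.sum_mul, hm1]
    linarith
  set B : I → ℝ := fun i => |dualF ε ρ ϖ m p 0 + R ^ 2| / m i with hB
  have B0 : ∀ i, 0 ≤ B i := fun i => div_nonneg (abs_nonneg _) (hm i).le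
  obtain ⟨ψ, -, hψ⟩ := (isCompact_Icc (a := (0 : I → ℝ)) (b := B)).exists_isMinOn
    ⟨0, le_rfl, B0⟩ hcont.continuousOn
  refine ⟨ψ, fun ψ' => le_trans ?_ (hshift ψ' (Finset.univ.inf' Finset.univ_nonempty ψ'))⟩
  obtain ⟨i0, -, hi0⟩ := Finset.exists_mem_eq_inf' Finset.univ_nonempty ψ'
  set φ : I → ℝ := fun i => ψ' i - Finset.univ.inf' Finset.univ_nonempty ψ' with hφ
  have φ0 : ∀ i, 0 ≤ φ i := fun i => sub_nonneg.2 (Finset.inf'_le _ (Finset.mem_univ i))
  by_cases hc : ∀ i, φ i ≤ B i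
  · exact hψ ⟨φ0, hc⟩
  push Not at hc
  obtain ⟨j, hj⟩ := hc
  refine (hψ ⟨le_rfl, B0⟩).trans ?_
  have h1 : ∫ x, (fun _ => -R ^ 2) x * ϖ x ∂ρ ≤ ∫ x, pot ε p φ x * ϖ x ∂ρ + 0 :=
    int_le_add S D (by fun_prop) (by fun_prop) fun x hx => by
      have h2 := le_lse hε (fun i => ⟪x, p i⟫ - φ i) i0
      have h3 : |⟪x, p i0⟫| ≤ R * R :=
        (abs_real_inner_le_norm _ _).trans (by gcongr; exacts [S.bdd x hx, hp i0])
      have h4 : φ i0 = 0 := by simp only [hφ, hi0, sub_self]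
      simp only [h4] at h2
      simp only [pot]
      nlinarith [(abs_le.1 h3).1]
  simp only [integral_const_mul, D.int] at h1
  have h5 : m j * φ j ≤ ∑ i, m i * φ i :=
    Finset.single_le_sum (f := fun i => m i * φ i) (fun i _ => mul_nonneg (hm i).le (φ0 i))
      (Finset.mem_univ j)
  have h6 : |dualF ε ρ ϖ m p 0 + R ^ 2| ≤ m j * φ j := by
    rw [hB, div_lt_iff₀ (hm j)] at hj
    linarith
  have h7 := le_abs_self (dualF ε ρ ϖ m p 0 + R ^ 2)
  change dualF ε ρ ϖ m p 0 ≤ ∫ x, pot ε p φ x * ϖ x ∂ρ + ∑ i, m i * φ i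
  linarith

lemma foc (S : Setup ρ K R) (hε : 0 < ε) {ϖ : E → ℝ} (D : Dens ρ K ϖ) {m : I → ℝ}
    {p : I → E} {ψ : I → ℝ} (hψ : ∀ ψ', dualF ε ρ ϖ m p ψ ≤ dualF ε ρ ϖ m p ψ') (i : I) :
    ∫ x, cell ε p ψ i x * ϖ x ∂ρ = m i := by
  classical
  have cϖ := D.cont
  set a := ∫ x, cell ε p ψ i x * ϖ x ∂ρ with ha
  have h : ∀ r : ℝ, 0 ≤ (Real.exp (-r) - 1) * a + m i * r := by
    intro r
    have h1 := hψ fun j => ψ j + if j = i then ε * r else 0
    have h2 : ∫ x, pot ε p (fun j => ψ j + if j = i then ε * r else 0) x * ϖ x ∂ρ ≤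
        ∫ x, (pot ε p ψ x * ϖ x + ε * (Real.exp (-r) - 1) * (cell ε p ψ i x * ϖ x)) ∂ρ :=
      S.mono (by fun_prop) (by fun_prop) fun x hx => by
        have := lse_update hε (fun j => ⟪x, p j⟫ - ψ j)
          (fun j => ⟪x, p j⟫ - (ψ j + if j = i then ε * r else 0)) i r (fun j => by ring)
        have := mul_le_mul_of_nonneg_right this (D.nonneg x hx)
        simp only [pot, cell]
        linarith
    rw [S.add (by fun_prop) (by fun_prop), integral_const_mul, ← ha] at h2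
    simp only [dualF, mul_add, Finset.sum_add_distrib, mul_ite, mul_zero, Finset.sum_ite_eq',
      Finset.mem_univ, if_true] at h1
    have h3 : 0 ≤ ε * ((Real.exp (-r) - 1) * a + m i * r) := by nlinarith
    exact (mul_nonneg_iff_of_pos_left hε).1 h3
  have hd : HasDerivAt (fun r : ℝ => (Real.exp (-r) - 1) * a + m i * r) (-a + m i) 0 := by
    have := (((hasDerivAt_neg (0 : ℝ)).exp.sub_const 1).mul_const a).fun_add
      ((hasDerivAt_id' (0 : ℝ)).const_mul (m i))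
    refine this.congr_deriv ?_
    simp
  have hmin : IsLocalMin (fun r : ℝ => (Real.exp (-r) - 1) * a + m i * r) 0 :=
    Filter.Eventually.of_forall fun r => by simpa using h r
  have := hmin.hasDerivAt_eq_zero hd
  linarith

lemma subgrad (S : Setup ρ K R) (hε : 0 < ε) {ϖ : E → ℝ} (D : Dens ρ K ϖ) {m : I → ℝ}
    {p : I → E} {ψ : I → ℝ} (hψ : ∀ i, ∫ x, cell ε p ψ i x * ϖ x ∂ρ = m i) (p' : I → E)
    (ψ' : I → ℝ) :
    dualF ε ρ ϖ m p ψ + ∑ i, ∫ x, cell ε p ψ i x * ⟪x, p' i - p i⟫ * ϖ x ∂ρ ≤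
      dualF ε ρ ϖ m p' ψ' := by
  have cϖ := D.cont
  have h1 : ∫ x, (pot ε p ψ x * ϖ x + ∑ i, (cell ε p ψ i x * ⟪x, p' i - p i⟫ * ϖ x -
      (ψ' i - ψ i) * (cell ε p ψ i x * ϖ x))) ∂ρ ≤ ∫ x, pot ε p' ψ' x * ϖ x ∂ρ :=
    S.mono (by fun_prop) (by fun_prop) fun x hx => by
      have := mul_le_mul_of_nonneg_right
        (lse_sub hε (fun j => ⟪x, p j⟫ - ψ j) (fun j => ⟪x, p' j⟫ - ψ' j)) (D.nonneg x hx)
      rw [add_mul, Finset.sum_mul] at this
      refine le_trans (le_of_eq ?_) this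
      congr 1
      refine Finset.sum_congr rfl fun i _ => ?_
      rw [inner_sub_right, cell]; ring
  rw [S.add (by fun_prop) (by fun_prop), S.sum (fun i => by fun_prop)] at h1
  have h2 : ∀ i, ∫ x, (cell ε p ψ i x * ⟪x, p' i - p i⟫ * ϖ x -
      (ψ' i - ψ i) * (cell ε p ψ i x * ϖ x)) ∂ρ =
      ∫ x, cell ε p ψ i x * ⟪x, p' i - p i⟫ * ϖ x ∂ρ - (m i * ψ' i - m i * ψ i) := fun i => by
    rw [S.sub (by fun_prop) (by fun_prop), integral_const_mul, hψ]; ring
  simp only [h2, Finset.sum_sub_distrib] at h1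
  simp only [dualF]
  linarith

end Crest.Agent.R82
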