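import Crest.Agent.R82.Split

set_option autoImplicit false
set_option linter.unusedSectionVars false

namespace Crest.Agent.R82

open MeasureTheory Set Filter Topology Crest.AnalysisR.OT
open scoped ENNReal RealInnerProductSpace

variable {d : ℕ}

local notation "E" => EuclideanSpace ℝ (Fin d)

variable {ρ : Measure (EuclideanSpace ℝ (Fin d))} {K : Set (EuclideanSpace ℝ (Fin d))} {R : ℝ}

lemma ae_norm_map {μ : Measure E} (hμ : ∀ᵐ y ∂μ, ‖y‖ ≤ R) {U : E → E} (hU : Measurable U)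
    (h : ρ.map U = μ) : ∀ᵐ x ∂ρ, ‖U x‖ ≤ R := by
  rw [← h] at hμ
  exact ae_of_ae_map hU.aemeasurable hμ

lemma integrable_inner_map (S : Setup ρ K R) {U : E → E} (hU : Measurable U)
    (hb : ∀ᵐ x ∂ρ, ‖U x‖ ≤ R) : Integrable (fun x => ⟪x, U x⟫) ρ := by
  have := S.prob
  refine Integrable.of_bound (measurable_id.inner hU).aestronglyMeasurable (R * R) ?_
  filter_upwards [hb, S.ae] with x h1 h2
  exact (norm_inner_le_norm _ _).trans
    (mul_le_mul (S.bdd x h2) h1 (norm_nonneg _) S.R_pos.le)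

lemma cost_eq (S : Setup ρ K R) {μ : Measure E} (hμ : ∀ᵐ y ∂μ, ‖y‖ ≤ R) {U : E → E}
    (hU : Measurable U) (h : ρ.map U = μ) :
    ∫⁻ x, ‖x - U x‖ₑ ^ 2 ∂ρ = ENNReal.ofReal (∫ x, ‖x - U x‖ ^ 2 ∂ρ) ∧
    ∫ x, ‖x - U x‖ ^ 2 ∂ρ =
      ∫ x, ‖x‖ ^ 2 ∂ρ - 2 * ∫ x, ⟪x, U x⟫ ∂ρ + ∫ y, ‖y‖ ^ 2 ∂μ := by
  have := S.prob
  have hb := ae_norm_map hμ hU h
  have i1 : Integrable (fun x : E => ‖x‖ ^ 2) ρ := S.integrable (by fun_prop)
  have i2 := integrable_inner_map S hU hb
  have i3 : Integrable (fun x => ‖U x‖ ^ 2) ρ := by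
    refine Integrable.of_bound (hU.norm.pow_const 2).aestronglyMeasurable (R ^ 2) ?_
    filter_upwards [hb] with x h1
    rw [Real.norm_eq_abs, abs_of_nonneg (by positivity)]; gcongr
  have e : ∀ x, ‖x - U x‖ ^ 2 = ‖x‖ ^ 2 - 2 * ⟪x, U x⟫ + ‖U x‖ ^ 2 := fun x =>
    norm_sub_sq_real _ _
  constructor
  · rw [ofReal_integral_eq_lintegral_ofReal _ (ae_of_all _ fun x => by positivity)]
    · congr 1; ext x
      rw [← ofReal_norm, ENNReal.ofReal_pow (norm_nonneg _)]
    · simp only [e]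
      exact (i1.sub (i2.const_mul 2)).add i3
  · simp only [e]
    have i4 : Integrable (fun x => ‖x‖ ^ 2 - 2 * ⟪x, U x⟫) ρ := i1.sub (i2.const_mul 2)
    rw [integral_add i4 i3, integral_sub i1 (i2.const_mul 2),
      integral_const_mul, ← h, integral_map hU.aemeasurable (by fun_prop)]

lemma corr_le_of_opt (S : Setup ρ K R) {μ : Measure E} (hμ : ∀ᵐ y ∂μ, ‖y‖ ≤ R) {T U : E → E}
    (hT : IsOptimalMap ρ μ T) (hU : Measurable U) (h : ρ.map U = μ) :
    ∫ x, ⟪x, U x⟫ ∂ρ ≤ ∫ x, ⟪x, T x⟫ ∂ρ := by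
  have h1 := hT.2.2 U hU h
  obtain ⟨a1, a2⟩ := cost_eq S hμ hT.1 hT.2.1
  obtain ⟨b1, b2⟩ := cost_eq S hμ hU h
  rw [a1, b1, ENNReal.ofReal_le_ofReal_iff (integral_nonneg fun x => by positivity), a2, b2] at h1
  linarith

lemma monge_ge (j : Fin d) (S : Setup ρ K R) (hac : ρ ≪ volume) {μ : Measure E}
    (hμ : ∀ᵐ y ∂μ, ‖y‖ ≤ R) {T : E → E} (hT : IsOptimalMap ρ μ T) {I : Type*} [Fintype I]
    {w : I → E → ℝ} (cw : ∀ i, Continuous (w i)) (w0 : ∀ i x, 0 ≤ w i x)
    (w1 : ∀ x, ∑ i, w i x = 1) {μi : I → Measure E} (hp : ∀ i, IsProbabilityMeasure (μi i))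
    {y : I → E} (hy : ∀ i, ‖y i‖ ≤ R) {η : ℝ} (hη : 0 < η)
    (hμi : ∀ i, ∀ᵐ z ∂μi i, ‖z - y i‖ ≤ η)
    (hsum : μ = ∑ i, ENNReal.ofReal (∫ x, w i x ∂ρ) • μi i) :
    ∑ i, ∫ x, w i x * ⟪x, y i⟫ ∂ρ - 3 * R * η ≤ ∫ x, ⟪x, T x⟫ ∂ρ := by
  have := S.prob
  have hR := S.R_pos
  obtain ⟨N, c, ℓ, hℓ, hc, hd⟩ := exists_partition S.compact S.nonempty hη
  set ρk : Fin (N + 1) → Measure E := fun k => ρ.restrict (ℓ ⁻¹' {k}) with hρk
  have hρ : ∑ k, ρk k = ρ := sum_restrict_fiber ρ hℓ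
  have hle : ∀ k, ρk k ≤ ρ := fun k => Measure.restrict_le_self
  have ik : ∀ {f : E → ℝ}, Integrable f ρ → ∀ k, Integrable f (ρk k) := fun hf k =>
    hf.mono_measure (hle k)
  have split : ∀ {f : E → ℝ}, Integrable f ρ → ∫ x, f x ∂ρ = ∑ k, ∫ x, f x ∂ρk k := fun hf => by
    conv_lhs => rw [← hρ]
    exact integral_finsetSum_measure fun k _ => ik hf k
  set a : I → Fin (N + 1) → ℝ := fun i k => ∫ x, w i x ∂ρk k with ha
  have a0 : ∀ i k, 0 ≤ a i k := fun i k => integral_nonneg (w0 i)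
  have asum : ∀ k, ∑ i, a i k = (ρk k).real univ := fun k => by
    simp only [ha]
    rw [← integral_finsetSum _ fun i _ => ik (S.integrable (cw i)) k]
    simp [w1]
  set ν : Fin (N + 1) → Measure E := fun k => ∑ i, ENNReal.ofReal (a i k) • μi i with hν
  have hmass : ∀ k, ν k univ = ρk k univ := fun k => by
    simp only [hν, Measure.finsetSum_apply, Measure.smul_apply, measure_univ, smul_eq_mul, mul_one]
    rw [← ENNReal.ofReal_sum_of_nonneg fun i _ => a0 i k, asum, ofReal_measureReal]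
  choose Sk hSk hSkν using fun k => exists_push j (ρk k) (ν k)
    ((hle k).absolutelyContinuous.trans hac) (hmass k)
  set U : E → E := fun x => Sk (ℓ x) x with hU
  have mU : Measurable U :=
    (measurable_from_prod_countable_right (f := fun q : Fin (N + 1) × E => Sk q.1 q.2)
      fun k => hSk k).comp (hℓ.prodMk measurable_id)
  have hUk : ∀ k, U =ᵐ[ρk k] Sk k := fun k => by
    filter_upwards [ae_restrict_mem (hℓ (measurableSet_singleton k))] with x hx
    simp only [hU, show ℓ x = k from hx]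
  have hUν : ∀ k, (ρk k).map U = ν k := fun k => by rw [Measure.map_congr (hUk k), hSkν]
  have hUμ : ρ.map U = μ := by
    conv_lhs => rw [← hρ]
    rw [Measure.map_finset_sum' mU.aemeasurable, hsum]
    simp only [hUν, hν]
    rw [Finset.sum_comm]
    refine Finset.sum_congr rfl fun i _ => ?_
    rw [← Finset.sum_smul, ← ENNReal.ofReal_sum_of_nonneg fun k _ => a0 i k,
      split (S.integrable (cw i))]
  refine le_trans ?_ (corr_le_of_opt S hμ hT mU hUμ)
  have hb := ae_norm_map hμ mU hUμ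
  have iU := integrable_inner_map S mU hb
  have key : ∀ k, ∑ i, ∫ x, w i x * ⟪x, y i⟫ ∂ρk k - 3 * R * η * (ρk k).real univ ≤
      ∫ x, ⟪x, U x⟫ ∂ρk k := by
    intro k
    have hck : ‖c k‖ ≤ R := S.bdd _ (hc k)
    have hnear : ∀ᵐ x ∂ρk k, ‖x - c k‖ ≤ η := by
      filter_upwards [ae_restrict_mem (hℓ (measurableSet_singleton k)),
        ae_mono (hle k) S.ae] with x hx hxK
      have := hd x hxK
      rw [show ℓ x = k from hx, dist_eq_norm] at this
      exact this.le
    have iμ : ∀ i, Integrable (fun z => ⟪c k, z⟫) (μi i) := fun i => by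
      refine Integrable.of_bound (by fun_prop) (R * (R + η)) ?_
      filter_upwards [hμi i] with z hz
      refine (norm_inner_le_norm _ _).trans ?_
      have : ‖z‖ ≤ R + η := by
        have := norm_add_le (y i) (z - y i)
        rw [add_sub_cancel] at this
        linarith [hy i]
      gcongr
    have icU : Integrable (fun x => ⟪c k, U x⟫) (ρk k) := by
      refine Integrable.of_bound (measurable_const.inner mU).aestronglyMeasurable (R * R) ?_
      filter_upwards [ae_mono (hle k) hb] with x h1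
      exact (norm_inner_le_norm _ _).trans (by gcongr)
    have s1 : ∫ x, ⟪c k, U x⟫ ∂ρk k - R * η * (ρk k).real univ ≤ ∫ x, ⟪x, U x⟫ ∂ρk k := by
      have : ∫ x, (⟪c k, U x⟫ - R * η) ∂ρk k ≤ ∫ x, ⟪x, U x⟫ ∂ρk k := by
        refine integral_mono_ae (icU.sub (integrable_const _)) (ik iU k) ?_
        filter_upwards [ae_mono (hle k) hb, hnear] with x h1 h2
        have h3 : |⟪x - c k, U x⟫| ≤ η * R := (abs_real_inner_le_norm _ _).trans (by gcongr)
        rw [inner_sub_left] at h3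
        linarith [(abs_le.1 h3).1]
      rwa [integral_sub icU (integrable_const _), integral_const, smul_eq_mul,
        mul_comm ((ρk k).real univ)] at this
    have s2 : ∫ x, ⟪c k, U x⟫ ∂ρk k = ∑ i, a i k * ∫ z, ⟪c k, z⟫ ∂μi i := by
      rw [← integral_map (f := fun z => ⟪c k, z⟫) mU.aemeasurable (by fun_prop), hUν]
      simp only [hν]
      rw [integral_finsetSum_measure fun i _ => (iμ i).smul_measure ENNReal.ofReal_ne_top]
      refine Finset.sum_congr rfl fun i _ => ?_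
      rw [integral_smul_measure, ENNReal.toReal_ofReal (a0 i k), smul_eq_mul]
    have s3 : ∀ i, ∫ x, w i x * ⟪x, y i⟫ ∂ρk k - 2 * R * η * a i k ≤
        a i k * ∫ z, ⟪c k, z⟫ ∂μi i := by
      intro i
      have t1 : ⟪c k, y i⟫ - R * η ≤ ∫ z, ⟪c k, z⟫ ∂μi i := by
        have : ∫ _, (⟪c k, y i⟫ - R * η) ∂μi i ≤ ∫ z, ⟪c k, z⟫ ∂μi i := by
          refine integral_mono_ae (integrable_const _) (iμ i) ?_
          filter_upwards [hμi i] with z hz
          have h3 : |⟪c k, z - y i⟫| ≤ R * η := (abs_real_inner_le_norm _ _).trans (by gcongr)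
          rw [inner_sub_right] at h3
          linarith [(abs_le.1 h3).1]
        simpa using this
      have t2 : ∫ x, w i x * ⟪x, y i⟫ ∂ρk k ≤ ∫ x, (⟪c k, y i⟫ + R * η) * w i x ∂ρk k := by
        have := cw i
        refine integral_mono_ae (ik (S.integrable (by fun_prop)) k)
          (ik (S.integrable (by fun_prop)) k) ?_
        filter_upwards [hnear] with x h2
        have h3 : |⟪x - c k, y i⟫| ≤ η * R :=
          (abs_real_inner_le_norm _ _).trans (by gcongr; exact hy i)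
        rw [inner_sub_left] at h3
        nlinarith [mul_le_mul_of_nonneg_left (abs_le.1 h3).2 (w0 i x)]
      rw [integral_const_mul] at t2
      change _ ≤ _ * a i k at t2
      nlinarith [mul_le_mul_of_nonneg_left t1 (a0 i k)]
    have s4 := Finset.sum_le_sum fun i (_ : i ∈ Finset.univ) => s3 i
    rw [Finset.sum_sub_distrib, ← Finset.mul_sum, asum] at s4
    linarith
  have k2 := Finset.sum_le_sum fun k (_ : k ∈ Finset.univ) => key k
  rw [← split iU, Finset.sum_sub_distrib, ← Finset.mul_sum, Finset.sum_comm] at k2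
  have e1 : ∑ k, (ρk k).real univ = 1 := by
    have := split (f := fun _ => 1) (integrable_const _)
    simpa using this.symm
  have e2 : ∀ i, ∑ k, ∫ x, w i x * ⟪x, y i⟫ ∂ρk k = ∫ x, w i x * ⟪x, y i⟫ ∂ρ := fun i => by
    have := cw i
    exact (split (S.integrable (by fun_prop))).symm
  simp only [e1, e2, mul_one] at k2
  exact k2

end Crest.Agent.R82
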