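import Crest.Agent.R82.Gap

set_option autoImplicit false
set_option linter.unusedSectionVars false

namespace Crest.Agent.R82

open MeasureTheory Set Filter Topology Crest.AnalysisR.OT
open scoped ENNReal RealInnerProductSpace

variable {d : ℕ}

local notation "E" => EuclideanSpace ℝ (Fin d)

variable {ρ : Measure (EuclideanSpace ℝ (Fin d))} {K : Set (EuclideanSpace ℝ (Fin d))} {R : ℝ}

/-- an inner parallel set with the translation estimates -/
structure Layer (ρ : Measure E) (K K' : Set E) (h l : ℝ) : Prop where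
  meas : MeasurableSet K'
  sub : ∀ x ∈ K', ∀ v : E, ‖v‖ ≤ h → x + v ∈ K
  small : ρ.real K'ᶜ ≤ l
  t1 : ∀ v : E, ‖v‖ ≤ h → ∀ F : E → ℝ, Continuous F → (∀ x, 0 ≤ F x) →
    ∫ x in K', F (x + v) ∂ρ ≤ ∫ x, F x ∂ρ
  t2 : ∀ v : E, ‖v‖ ≤ h → ∀ G : E → ℝ, Continuous G → ∀ M, (∀ x, |G x| ≤ M) →
    ∫ x, G x ∂ρ - ∫ x, G (x - v) ∂ρ ≤ 2 * M * l

lemma exists_layer (hKc : IsCompact K) (hKv : Convex ℝ K) {c : E} {r : ℝ} (hr : 0 < r)
    (hball : Metric.closedBall c r ⊆ K) {h : ℝ} (h0 : 0 < h) (hhr : h ≤ r) :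
    ∃ K', Layer (uniformProbOn K) K K' h (d * h / r) := by
  have hKi : (interior K).Nonempty :=
    ⟨c, mem_interior_iff_mem_nhds.2 (mem_of_superset (Metric.closedBall_mem_nhds c hr) hball)⟩
  have v0 : volume K ≠ 0 := (Measure.measure_pos_of_nonempty_interior _ hKi).ne'
  have vt : volume K ≠ ⊤ := hKc.measure_lt_top.ne
  have hKm := hKc.measurableSet
  set t := h / r with ht
  have t0 : 0 < t := by positivity
  have t1 : t ≤ 1 := (div_le_one hr).2 hhr
  set K' := AffineMap.homothety c (1 - t) '' K with hK'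
  have hK'c : IsCompact K' := hKc.image (AffineMap.homothety_continuous _ _)
  have hK'm := hK'c.measurableSet
  have hsub : ∀ x ∈ K', ∀ v : E, ‖v‖ ≤ h → x + v ∈ K := by
    rintro _ ⟨k, hk, rfl⟩ v hv
    have h1 : c + t⁻¹ • v ∈ K := hball (by
      rw [mem_closedBall_iff_norm, add_sub_cancel_left, norm_smul, norm_inv, Real.norm_eq_abs,
        abs_of_pos t0, inv_mul_le_iff₀ t0, ht, div_mul_cancel₀ _ hr.ne']
      exact hv)
    have h2 := hKv hk h1 (sub_nonneg.2 t1) t0.le (by ring)
    convert h2 using 1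
    rw [AffineMap.homothety_apply, vsub_eq_sub, vadd_eq_add, smul_add, smul_smul,
      mul_inv_cancel₀ t0.ne']
    module
  have hKK : K' ⊆ K := fun x hx => by simpa using hsub x hx 0 (by simpa using h0.le)
  set κ := ((volume K)⁻¹).toReal with hκ
  have κ0 : 0 ≤ κ := ENNReal.toReal_nonneg
  have hsmall : κ * volume.real (K \ K') ≤ d * h / r := by
    have e1 : volume.real K' = (1 - t) ^ d * volume.real K := by
      rw [hK', measureReal_def, Measure.addHaar_image_homothety, ENNReal.toReal_mul,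
        ENNReal.toReal_ofReal (abs_nonneg _), finrank_euclideanSpace_fin,
        abs_of_nonneg (pow_nonneg (sub_nonneg.2 t1) _), measureReal_def]
    have e2 : κ * volume.real K = 1 := by
      rw [hκ, measureReal_def, ← ENNReal.toReal_mul, ENNReal.inv_mul_cancel v0 vt]; simp
    rw [measureReal_sdiff hKK hK'm vt, e1, mul_sub, mul_left_comm, e2, mul_one, mul_div_assoc]
    have := one_add_mul_le_pow (a := -t) (by linarith) d
    rw [← sub_eq_add_neg] at this
    linarith
  have hint : ∀ f : E → ℝ, ∫ x, f x ∂uniformProbOn K = κ * ∫ x, K.indicator f x := fun f => by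
    rw [uniformProbOn, integral_smul_measure, integral_indicator hKm, smul_eq_mul]
  have iK : ∀ {f : E → ℝ}, Continuous f → Integrable (K.indicator f) := fun hf =>
    (hf.continuousOn.integrableOn_compact hKc).integrable_indicator hKm
  refine ⟨K', hK'm, hsub, ?_, fun v hv F hF F0 => ?_, fun v hv G hG M hM => ?_⟩
  · refine le_trans (le_of_eq ?_) hsmall
    rw [uniformProbOn, measureReal_def, Measure.smul_apply, Measure.restrict_apply hK'm.compl,
      smul_eq_mul, ENNReal.toReal_mul, measureReal_def, sdiff_eq, inter_comm]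
  · rw [← integral_indicator hK'm, hint, hint]
    refine mul_le_mul_of_nonneg_left ?_ κ0
    rw [← integral_add_right_eq_self (K.indicator F) v]
    refine integral_mono_of_nonneg (ae_of_all _ fun x => ?_) ((iK hF).comp_add_right v)
      (ae_of_all _ fun x => ?_)
    · exact indicator_nonneg (fun x _ => indicator_nonneg (fun y _ => F0 _) _) _
    · simp only [indicator_indicator]
      by_cases hx : x ∈ K ∩ K'
      · rw [indicator_of_mem hx, indicator_of_mem (hsub x hx.2 v hv)]
      · rw [indicator_of_notMem hx]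
        exact indicator_nonneg (fun y _ => F0 _) _
  · have M0 : 0 ≤ M := (abs_nonneg _).trans (hM 0)
    have iG2 : Integrable (K.indicator fun x => G (x - v)) := iK (by fun_prop)
    have iL : Integrable ((K \ K').indicator fun _ : E => M) :=
      (integrableOn_const (ne_top_of_le_ne_top vt (measure_mono sdiff_subset))).integrable_indicator
        (hKm.diff hK'm)
    rw [hint, hint, ← mul_sub, ← integral_add_right_eq_self (K.indicator fun x => G (x - v)) v,
      ← integral_sub (iK hG) (iG2.comp_add_right v)]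
    have h1 : ∫ x, (K.indicator G x - K.indicator (fun x => G (x - v)) (x + v)) ≤
        ∫ x, ((K \ K').indicator (fun _ => M) x + (K \ K').indicator (fun _ => M) (x + v)) := by
      refine integral_mono ((iK hG).sub (iG2.comp_add_right v)) (iL.add (iL.comp_add_right v))
        fun x => ?_
      have n1 : 0 ≤ (K \ K').indicator (fun _ => M) x := indicator_nonneg (fun _ _ => M0) _
      have n2 : 0 ≤ (K \ K').indicator (fun _ => M) (x + v) := indicator_nonneg (fun _ _ => M0) _
      simp only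
      by_cases hx : x ∈ K <;> by_cases hxv : x + v ∈ K
      · rw [indicator_of_mem hx, indicator_of_mem hxv, add_sub_cancel_right]; linarith
      · rw [indicator_of_mem hx, indicator_of_notMem hxv,
          indicator_of_mem (show x ∈ K \ K' from ⟨hx, fun h => hxv (hsub x h v hv)⟩)]
        linarith [(abs_le.1 (hM x)).2]
      · rw [indicator_of_notMem hx, indicator_of_mem hxv, add_sub_cancel_right,
          indicator_of_mem (show x + v ∈ K \ K' from ⟨hxv, fun h => hx (by
            simpa using hsub _ h (-v) (by simpa using hv))⟩)]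
        linarith [(abs_le.1 (hM x)).1]
      · rw [indicator_of_notMem hx, indicator_of_notMem hxv]; linarith
    rw [integral_add iL (iL.comp_add_right v), integral_add_right_eq_self,
      integral_indicator_const _ (hKm.diff hK'm), smul_eq_mul] at h1
    calc κ * _ ≤ κ * (volume.real (K \ K') * M + volume.real (K \ K') * M) := by gcongr
      _ = 2 * M * (κ * volume.real (K \ K')) := by ring
      _ ≤ _ := by gcongr

lemma dir_bound (S : Setup ρ K R) {K' : Set E} {h l : ℝ} (L : Layer ρ K K' h l) (h0 : 0 < h)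
    {φ φ' e e' : E → ℝ} (cφ : Continuous φ) (cφ' : Continuous φ') (ie : Integrable e ρ)
    (ie' : Integrable e' ρ) {T T' : E → E} (mT : Measurable T) (mT' : Measurable T')
    (bT : ∀ᵐ x ∂ρ, ‖T x‖ ≤ R) (bT' : ∀ᵐ x ∂ρ, ‖T' x‖ ≤ R)
    (he : ∀ x, ∀ x' ∈ K, φ x + ⟪x' - x, T x⟫ - e x ≤ φ x')
    (he' : ∀ x, ∀ x' ∈ K, φ' x + ⟪x' - x, T' x⟫ - e' x ≤ φ' x')
    (lip : ∀ x y, φ' x ≤ φ' y + R * ‖x - y‖)
    (cvx : ∀ x y, φ' (mid x y) ≤ (φ' x + φ' y) / 2) (c : ℝ) {n : E} (hn : ‖n‖ = 1) :
    ∫ x, (max ⟪n, T x - T' x⟫ 0) ^ 2 ∂ρ ≤ 4 / h ^ 2 * ∫ x, (φ x - φ' x - c) ^ 2 ∂ρ +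
      4 * R / h * (∫ x, e x ∂ρ + ∫ x, e' x ∂ρ) + 12 * R ^ 2 * l := by
  have := S.prob
  have hR := S.R_pos
  set v := h • n with hv
  have nv : ‖v‖ = h := by rw [hv, norm_smul, hn, mul_one, Real.norm_eq_abs, abs_of_pos h0]
  set w : E → ℝ := fun x => φ x - φ' x - c with hw
  have cw : Continuous w := by simp only [hw]; fun_prop
  set G : E → ℝ := fun x => φ' (x + v) - φ' x with hG
  have cG : Continuous G := by simp only [hG]; fun_prop
  have bG : ∀ x, |G x| ≤ R * h := fun x => by
    have a1 := lip (x + v) x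
    have a2 := lip x (x + v)
    rw [norm_sub_rev] at a2
    rw [add_sub_cancel_left, nv] at a1 a2
    simp only [hG]
    rw [abs_le]; constructor <;> linarith
  have G0 : ∀ x, 0 ≤ G x - G (x - v) := fun x => by
    have a1 := cvx (x + v) (x - v)
    have a2 : mid (x + v) (x - v) = x := by rw [mid]; module
    rw [a2] at a1
    simp only [hG, sub_add_cancel]
    linarith
  have e0 : ∀ x ∈ K, 0 ≤ e x := fun x hx => by simpa using he x x hx
  have e0' : ∀ x ∈ K, 0 ≤ e' x := fun x hx => by simpa using he' x x hx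
  set X : E → ℝ := fun x => max ⟪n, T x - T' x⟫ 0 with hX
  have mX : Measurable X := (measurable_const.inner (mT.sub mT')).max measurable_const
  have bX : ∀ᵐ x ∂ρ, X x ≤ 2 * R := by
    filter_upwards [bT, bT'] with x h1 h2
    refine max_le ((real_inner_le_norm _ _).trans ?_) (by positivity)
    rw [hn, one_mul]
    exact (norm_sub_le _ _).trans (by linarith)
  have X0 : ∀ x, 0 ≤ X x := fun x => le_max_right _ _
  have iX : Integrable (fun x => X x ^ 2) ρ := by
    refine Integrable.of_bound (mX.pow_const 2).aestronglyMeasurable ((2 * R) ^ 2) ?_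
    filter_upwards [bX] with x h1
    rw [Real.norm_eq_abs, abs_of_nonneg (by positivity)]
    exact pow_le_pow_left₀ (X0 x) h1 2
  have i1 : Integrable (K'.indicator fun x => 2 / h ^ 2 * w (x + v) ^ 2) ρ :=
    (S.integrable (by fun_prop)).indicator L.meas
  have i2 : Integrable (fun x => 2 / h ^ 2 * w x ^ 2) ρ := S.integrable (by fun_prop)
  have i3 : Integrable (fun x => 4 * R / h * (G x - G (x - v))) ρ := S.integrable (by fun_prop)
  have i4 : Integrable (fun x => 4 * R / h * (e x + e' x)) ρ := (ie.add ie').const_mul _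
  have i5 : Integrable (K'ᶜ.indicator fun _ => 4 * R ^ 2) ρ :=
    (integrable_const _).indicator L.meas.compl
  have i12 : Integrable (fun x => K'.indicator (fun x => 2 / h ^ 2 * w (x + v) ^ 2) x +
    2 / h ^ 2 * w x ^ 2) ρ := i1.add i2
  have i123 : Integrable (fun x => K'.indicator (fun x => 2 / h ^ 2 * w (x + v) ^ 2) x +
    2 / h ^ 2 * w x ^ 2 + 4 * R / h * (G x - G (x - v))) ρ := i12.add i3
  have i1234 : Integrable (fun x => K'.indicator (fun x => 2 / h ^ 2 * w (x + v) ^ 2) x +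
    2 / h ^ 2 * w x ^ 2 + 4 * R / h * (G x - G (x - v)) + 4 * R / h * (e x + e' x)) ρ :=
    i123.add i4
  have key : ∫ x, X x ^ 2 ∂ρ ≤ ∫ x, (K'.indicator (fun x => 2 / h ^ 2 * w (x + v) ^ 2) x +
      2 / h ^ 2 * w x ^ 2 + 4 * R / h * (G x - G (x - v)) + 4 * R / h * (e x + e' x) +
      K'ᶜ.indicator (fun _ => 4 * R ^ 2) x) ∂ρ := by
    refine integral_mono_ae iX (i1234.add i5) ?_
    filter_upwards [bX, S.ae] with x hx hxK
    have p2 : 0 ≤ 2 / h ^ 2 * w x ^ 2 := by positivity
    have p3 := G0 x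
    have p4 := add_nonneg (e0 x hxK) (e0' x hxK)
    by_cases hK' : x ∈ K'
    · rw [indicator_of_mem hK', indicator_of_notMem (show x ∉ K'ᶜ from fun h => h hK'), add_zero]
      have a1 := he x _ (L.sub x hK' v nv.le)
      have a2 := he' x _ (L.sub x hK' (-v) (by rw [norm_neg, nv]))
      rw [add_sub_cancel_left] at a1 a2
      rw [inner_neg_left, ← sub_eq_add_neg x v] at a2
      have a3 : h * ⟪n, T x - T' x⟫ ≤ (w (x + v) - w x) + ((G x - G (x - v)) + (e x + e' x)) := by
        rw [← real_inner_smul_left, ← hv, inner_sub_right]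
        simp only [hw, hG, sub_add_cancel]
        linarith
      set A := w (x + v) - w x with hA
      set B := (G x - G (x - v)) + (e x + e' x) with hB
      have B0 : 0 ≤ B := add_nonneg p3 p4
      have a4 : h * X x ≤ |A| + B := by
        simp only [hX]
        rw [mul_max_of_nonneg _ _ h0.le, mul_zero]
        exact max_le (a3.trans (by linarith [le_abs_self A])) (by positivity)
      have a5 : h ^ 2 * X x ^ 2 ≤ A ^ 2 + 4 * R * h * B := by
        have b1 := mul_le_mul_of_nonneg_left a4 (mul_nonneg h0.le (X0 x))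
        have b2 := mul_le_mul_of_nonneg_right hx (mul_nonneg h0.le B0)
        rw [← sq_abs A]
        nlinarith [sq_nonneg (h * X x - |A|)]
      have a6 : A ^ 2 ≤ 2 * w (x + v) ^ 2 + 2 * w x ^ 2 := by
        rw [hA]; nlinarith [sq_nonneg (w (x + v) + w x)]
      refine le_of_mul_le_mul_left (a5.trans ?_) (pow_pos h0 2)
      have e1 : h ^ 2 * (2 / h ^ 2 * w (x + v) ^ 2 + 2 / h ^ 2 * w x ^ 2 +
          4 * R / h * (G x - G (x - v)) + 4 * R / h * (e x + e' x)) =
          2 * w (x + v) ^ 2 + 2 * w x ^ 2 + 4 * R * h * B := by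
        rw [hB]; field_simp; ring
      rw [e1]; linarith
    · rw [indicator_of_notMem hK', indicator_of_mem (show x ∈ K'ᶜ from hK')]
      have : X x ^ 2 ≤ (2 * R) ^ 2 := pow_le_pow_left₀ (X0 x) hx 2
      have q3 : 0 ≤ 4 * R / h * (G x - G (x - v)) := by positivity
      have q4 : 0 ≤ 4 * R / h * (e x + e' x) := by positivity
      linarith
  rw [integral_add i1234 i5, integral_add i123 i4, integral_add i12 i3, integral_add i1 i2,
    integral_indicator L.meas, integral_indicator_const _ L.meas.compl, integral_const_mul,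
    integral_const_mul, integral_const_mul, integral_const_mul, integral_add ie ie',
    S.sub cG (by fun_prop), smul_eq_mul] at key
  have u1 := mul_le_mul_of_nonneg_left
    (L.t1 v nv.le (fun x => w x ^ 2) (by fun_prop) fun x => sq_nonneg _)
    (show 0 ≤ 2 / h ^ 2 by positivity)
  have u2 := mul_le_mul_of_nonneg_left (L.t2 v nv.le G cG _ bG)
    (show 0 ≤ 4 * R / h by positivity)
  have u3 : 4 * R / h * (2 * (R * h) * l) = 8 * R ^ 2 * l := by field_simp; ring
  have u4 := mul_le_mul_of_nonneg_right L.small (show 0 ≤ 4 * R ^ 2 by positivity)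
  have u5 : 4 / h ^ 2 * ∫ x, w x ^ 2 ∂ρ =
    2 / h ^ 2 * ∫ x, w x ^ 2 ∂ρ + 2 / h ^ 2 * ∫ x, w x ^ 2 ∂ρ := by ring
  change ∫ x, X x ^ 2 ∂ρ ≤ 4 / h ^ 2 * ∫ x, w x ^ 2 ∂ρ + _ + _
  linarith

lemma norm_sq_le_sum (u : E) : ‖u‖ ^ 2 = ∑ j : Fin d,
    ((max ⟪EuclideanSpace.single j (1 : ℝ), u⟫ 0) ^ 2 +
      (max ⟪-EuclideanSpace.single j (1 : ℝ), u⟫ 0) ^ 2) := by
  rw [EuclideanSpace.real_norm_sq_eq]
  refine Finset.sum_congr rfl fun j _ => ?_
  rw [inner_neg_left, EuclideanSpace.inner_single_left]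
  simp only [conj_trivial, one_mul]
  rcases le_total 0 (u j) with h | h
  · rw [max_eq_left h, max_eq_right (neg_nonpos.2 h)]; ring
  · rw [max_eq_right h, max_eq_left (neg_nonneg.2 h)]; ring

lemma rev_bound (S : Setup ρ K R) {K' : Set E} {h l : ℝ} (L : Layer ρ K K' h l) (h0 : 0 < h)
    {φ φ' e e' : E → ℝ} (cφ : Continuous φ) (cφ' : Continuous φ') (ie : Integrable e ρ)
    (ie' : Integrable e' ρ) {T T' : E → E} (mT : Measurable T) (mT' : Measurable T')
    (bT : ∀ᵐ x ∂ρ, ‖T x‖ ≤ R) (bT' : ∀ᵐ x ∂ρ, ‖T' x‖ ≤ R)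
    (he : ∀ x, ∀ x' ∈ K, φ x + ⟪x' - x, T x⟫ - e x ≤ φ x')
    (he' : ∀ x, ∀ x' ∈ K, φ' x + ⟪x' - x, T' x⟫ - e' x ≤ φ' x')
    (lip : ∀ x y, φ' x ≤ φ' y + R * ‖x - y‖)
    (cvx : ∀ x y, φ' (mid x y) ≤ (φ' x + φ' y) / 2) (c : ℝ) :
    ∫ x, ‖T x - T' x‖ ^ 2 ∂ρ ≤ 2 * d * (4 / h ^ 2 * ∫ x, (φ x - φ' x - c) ^ 2 ∂ρ +
      4 * R / h * (∫ x, e x ∂ρ + ∫ x, e' x ∂ρ) + 12 * R ^ 2 * l) := by
  have := S.prob
  have hR := S.R_pos
  have iX : ∀ n : E, ‖n‖ = 1 → Integrable (fun x => (max ⟪n, T x - T' x⟫ 0) ^ 2) ρ := by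
    intro n hn
    refine Integrable.of_bound (((measurable_const.inner (mT.sub mT')).max
      measurable_const).pow_const 2).aestronglyMeasurable ((2 * R) ^ 2) ?_
    filter_upwards [bT, bT'] with x h1 h2
    rw [Real.norm_eq_abs, abs_of_nonneg (by positivity)]
    refine pow_le_pow_left₀ (le_max_right _ _) ?_ 2
    refine max_le ((real_inner_le_norm _ _).trans ?_) (by positivity)
    rw [hn, one_mul]
    exact (norm_sub_le _ _).trans (by linarith)
  have n1 : ∀ j : Fin d, ‖(EuclideanSpace.single j (1 : ℝ) : E)‖ = 1 := fun j => by simp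
  have n2 : ∀ j : Fin d, ‖(-EuclideanSpace.single j (1 : ℝ) : E)‖ = 1 := fun j => by simp
  simp only [norm_sq_le_sum (T _ - T' _)]
  have iXX : ∀ j : Fin d, Integrable (fun x =>
      (max ⟪EuclideanSpace.single j (1 : ℝ), T x - T' x⟫ 0) ^ 2 +
      (max ⟪-EuclideanSpace.single j (1 : ℝ), T x - T' x⟫ 0) ^ 2) ρ :=
    fun j => (iX _ (n1 j)).add (iX _ (n2 j))
  rw [integral_finsetSum _ fun j _ => iXX j]
  refine (Finset.sum_le_sum fun j _ => ?_).trans (le_of_eq (by
    rw [Finset.sum_const, Finset.card_univ, Fintype.card_fin, nsmul_eq_mul, mul_comm 2 (d : ℝ),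
      mul_assoc]))
  rw [integral_add (iX _ (n1 j)) (iX _ (n2 j)), two_mul]
  exact add_le_add (dir_bound S L h0 cφ cφ' ie ie' mT mT' bT bT' he he' lip cvx c (n1 j))
    (dir_bound S L h0 cφ cφ' ie ie' mT mT' bT bT' he he' lip cvx c (n2 j))

end Crest.Agent.R82
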