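import Crest.Agent.Lib.PL.PrekopaLeindler
import Crest.Prelude.Def_QuadraticTransport

set_option autoImplicit false
set_option linter.unusedSectionVars false

namespace Crest.Agent.R82

open MeasureTheory Set Filter Topology
open scoped ENNReal NNReal

/-- midpoint -/
noncomputable def mid {E : Type*} [AddCommGroup E] [Module ℝ E] (x y : E) : E :=
  (1 / 2 : ℝ) • x + (1 / 2 : ℝ) • y

lemma mid_self {E : Type*} [AddCommGroup E] [Module ℝ E] (x : E) : mid x x = x := by
  rw [mid, ← add_smul]; norm_num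

/-- The properties of the source measure that are used. -/
structure Setup {E : Type*} [NormedAddCommGroup E] [NormedSpace ℝ E] [MeasurableSpace E]
    (ρ : Measure E) (K : Set E) (R : ℝ) : Prop where
  prob : IsProbabilityMeasure ρ
  ae : ∀ᵐ x ∂ρ, x ∈ K
  compact : IsCompact K
  R_pos : 0 < R
  bdd : ∀ x ∈ K, ‖x‖ ≤ R
  pl : ∀ f g h : E → ℝ, Continuous f → Continuous g → Continuous h → (∀ x, 0 ≤ f x) →
    (∀ x, 0 ≤ g x) → (∀ x, 0 ≤ h x) → (∀ x ∈ K, ∀ y ∈ K, f x * g y ≤ h (mid x y) ^ 2) →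
    (∫ x, f x ∂ρ) * (∫ x, g x ∂ρ) ≤ (∫ x, h x ∂ρ) ^ 2

section
variable {E : Type*} [NormedAddCommGroup E] [NormedSpace ℝ E] [MeasurableSpace E]
  [OpensMeasurableSpace E] {ρ : Measure E} {K : Set E} {R : ℝ}

lemma Setup.integrable (S : Setup ρ K R) {F : Type*} [NormedAddCommGroup F] {f : E → F}
    (hf : Continuous f) : Integrable f ρ := by
  have := S.prob
  have h : IntegrableOn f K ρ := hf.continuousOn.integrableOn_compact S.compact
  rwa [IntegrableOn, Measure.restrict_eq_self_of_ae_mem S.ae] at h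

lemma Setup.mono (S : Setup ρ K R) {f g : E → ℝ} (hf : Continuous f) (hg : Continuous g)
    (h : ∀ x ∈ K, f x ≤ g x) : ∫ x, f x ∂ρ ≤ ∫ x, g x ∂ρ :=
  integral_mono_ae (S.integrable hf) (S.integrable hg) (S.ae.mono h)

lemma Setup.pos (S : Setup ρ K R) {f : E → ℝ} (hf : Continuous f) (h : ∀ x, 0 < f x) :
    0 < ∫ x, f x ∂ρ := by
  have := S.prob
  rw [integral_pos_iff_support_of_nonneg (fun x => (h x).le) (S.integrable hf)]
  have : Function.support f = univ := eq_univ_of_forall fun x => (h x).ne'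
  simp [this]

lemma Setup.const (S : Setup ρ K R) (c : ℝ) : ∫ _, c ∂ρ = c := by
  have := S.prob
  simp

lemma Setup.add (S : Setup ρ K R) {f g : E → ℝ} (hf : Continuous f) (hg : Continuous g) :
    ∫ x, f x + g x ∂ρ = ∫ x, f x ∂ρ + ∫ x, g x ∂ρ :=
  integral_add (S.integrable hf) (S.integrable hg)

lemma Setup.sub (S : Setup ρ K R) {f g : E → ℝ} (hf : Continuous f) (hg : Continuous g) :
    ∫ x, f x - g x ∂ρ = ∫ x, f x ∂ρ - ∫ x, g x ∂ρ :=
  integral_sub (S.integrable hf) (S.integrable hg)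

lemma Setup.sum (S : Setup ρ K R) {I : Type*} [Fintype I] {f : I → E → ℝ}
    (hf : ∀ i, Continuous (f i)) : ∫ x, ∑ i, f i x ∂ρ = ∑ i, ∫ x, f i x ∂ρ :=
  integral_finsetSum _ fun i _ => S.integrable (hf i)

lemma Setup.nonempty (S : Setup ρ K R) : K.Nonempty := by
  have := S.prob
  exact S.ae.exists
end

open Crest.AnalysisR.OT in
lemma setup_uniform {d : ℕ} {K : Set (EuclideanSpace ℝ (Fin d))} (hKc : IsCompact K)
    (hKv : Convex ℝ K) (hKi : (interior K).Nonempty) {R : ℝ} (hR : 0 < R)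
    (hb : ∀ x ∈ K, ‖x‖ ≤ R) : Setup (uniformProbOn K) K R := by
  have h0 : volume K ≠ 0 := (Measure.measure_pos_of_nonempty_interior _ hKi).ne'
  have ht : volume K ≠ ⊤ := hKc.measure_lt_top.ne
  have hp : IsProbabilityMeasure (uniformProbOn K) :=
    ⟨by simp [uniformProbOn, ENNReal.inv_mul_cancel h0 ht]⟩
  have hae : ∀ᵐ x ∂(uniformProbOn K), x ∈ K :=
    Measure.ae_smul_measure (ae_restrict_mem hKc.measurableSet) _
  refine ⟨hp, hae, hKc, hR, hb, fun f g h hf hg hh f0 g0 h0' H => ?_⟩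
  have key := (Crest.Agent.Lib.PL.hasPL_euclidean (a := 1 / 2) (b := 1 / 2) (by norm_num)
    (by norm_num) (by norm_num) d).restrict (by norm_num) (by norm_num) (by norm_num) hKv
    hKc.measurableSet (fun x => ENNReal.ofReal (f x)) (fun x => ENNReal.ofReal (g x))
    (fun x => ENNReal.ofReal (h x)) hf.measurable.ennreal_ofReal hg.measurable.ennreal_ofReal
    hh.measurable.ennreal_ofReal (fun x hx y hy => by
      rw [← ENNReal.mul_rpow_of_nonneg _ _ (by norm_num), ← ENNReal.ofReal_mul (f0 x),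
        ENNReal.ofReal_rpow_of_nonneg (mul_nonneg (f0 x) (g0 y)) (by norm_num)]
      apply ENNReal.ofReal_le_ofReal
      rw [← Real.sqrt_eq_rpow]
      exact Real.sqrt_le_iff.2 ⟨h0' _, H x hx y hy⟩)
  have i1 : ∀ f : EuclideanSpace ℝ (Fin d) → ℝ, Continuous f → (∀ x, 0 ≤ f x) →
      ∫⁻ x in K, ENNReal.ofReal (f x) = ENNReal.ofReal (∫ x in K, f x) := fun f hf f0 =>
    (ofReal_integral_eq_lintegral_ofReal (hf.continuousOn.integrableOn_compact hKc)
      (ae_of_all _ f0)).symm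
  have n1 : ∀ f : EuclideanSpace ℝ (Fin d) → ℝ, (∀ x, 0 ≤ f x) → 0 ≤ ∫ x in K, f x :=
    fun f f0 => integral_nonneg f0
  rw [i1 f hf f0, i1 g hg g0, i1 h hh h0', ← ENNReal.mul_rpow_of_nonneg _ _ (by norm_num),
    ← ENNReal.ofReal_mul (n1 f f0),
    ENNReal.ofReal_rpow_of_nonneg (mul_nonneg (n1 f f0) (n1 g g0)) (by norm_num),
    ENNReal.ofReal_le_ofReal_iff (n1 h h0'), ← Real.sqrt_eq_rpow] at key
  have key2 := (Real.sqrt_le_iff.1 key).2
  simp only [uniformProbOn, integral_smul_measure, smul_eq_mul]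
  set c := ((volume K)⁻¹).toReal
  calc c * (∫ x in K, f x) * (c * ∫ x in K, g x)
      = c ^ 2 * ((∫ x in K, f x) * ∫ x in K, g x) := by ring
    _ ≤ c ^ 2 * (∫ x in K, h x) ^ 2 := by gcongr
    _ = _ := by ring

end Crest.Agent.R82
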