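import Crest.Agent.R82.Final

set_option autoImplicit false
set_option linter.unusedSectionVars false

namespace Crest.Agent.R82

open MeasureTheory Set Filter Topology Crest.AnalysisR.OT
open scoped ENNReal NNReal RealInnerProductSpace

variable {d : ℕ}

local notation "E" => EuclideanSpace ℝ (Fin d)

/-- the cube -/
def cube (d : ℕ) : Set (EuclideanSpace ℝ (Fin d)) := {x | ∀ i, |x i| ≤ 1}

lemma volume_box (a b : Fin d → ℝ) :
    volume {x : E | ∀ i, a i < x i ∧ x i < b i} = ∏ i, ENNReal.ofReal (b i - a i) := by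
  have := (PiLp.volume_preserving_ofLp (Fin d)).measure_preimage
    (s := Set.pi univ fun i => Ioo (a i) (b i))
    (MeasurableSet.univ_pi fun i => measurableSet_Ioo).nullMeasurableSet
  rw [Real.volume_pi_Ioo] at this
  rw [← this]
  congr 1; ext x; simp

lemma cube_norm {x : E} (hx : x ∈ cube d) : ‖x‖ ≤ d + 1 := by
  have h1 : ‖x‖ ^ 2 ≤ d := by
    rw [EuclideanSpace.real_norm_sq_eq]
    calc ∑ i, x i ^ 2 ≤ ∑ _i : Fin d, (1 : ℝ) := Finset.sum_le_sum fun i _ => by
          rw [← sq_abs]; exact pow_le_one₀ (abs_nonneg _) (hx i)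
      _ = d := by simp
  nlinarith [norm_nonneg x, sq_nonneg (‖x‖ - 1)]

lemma cube_closed : IsClosed (cube d) := by
  have : cube d = ⋂ i, {x : E | |x i| ≤ 1} := by ext x; simp [cube]
  rw [this]
  exact isClosed_iInter fun i => isClosed_le (by fun_prop) continuous_const

lemma cube_compact : IsCompact (cube d) :=
  Metric.isCompact_of_isClosed_isBounded cube_closed
    ((Metric.isBounded_closedBall (x := (0 : E)) (r := d + 1)).subset fun x hx => by
      simpa using cube_norm hx)

lemma cube_convex : Convex ℝ (cube d) := by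
  intro x hx y hy a b ha hb hab i
  simp only [PiLp.add_apply, PiLp.smul_apply, smul_eq_mul]
  calc |a * x i + b * y i| ≤ |a * x i| + |b * y i| := abs_add_le _ _
    _ = a * |x i| + b * |y i| := by rw [abs_mul, abs_mul, abs_of_nonneg ha, abs_of_nonneg hb]
    _ ≤ a * 1 + b * 1 := by gcongr; exacts [hx i, hy i]
    _ = 1 := by linarith

lemma cube_interior : (interior (cube d)).Nonempty := by
  refine ⟨0, mem_interior_iff_mem_nhds.2 (mem_of_superset (Metric.closedBall_mem_nhds 0 one_pos)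
    fun x hx i => ?_)⟩
  exact (PiLp.norm_apply_le x i).trans (by simpa using hx)

lemma setup_cube : Setup (uniformProbOn (cube d)) (cube d) (d + 1) :=
  setup_uniform cube_compact cube_convex cube_interior (by positivity) fun _ hx => cube_norm hx

lemma unif_box {A : Set E} (hA : MeasurableSet A) (a b : Fin d → ℝ) (hab : ∀ i, a i ≤ b i)
    (h : ∀ x : E, (∀ i, a i < x i ∧ x i < b i) → x ∈ A ∧ x ∈ cube d) :
    (volume.real (cube d))⁻¹ * ∏ i, (b i - a i) ≤ (uniformProbOn (cube d)).real A := by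
  have vt : volume (cube d) ≠ ⊤ := cube_compact.measure_lt_top.ne
  rw [uniformProbOn, measureReal_def, measureReal_def, Measure.smul_apply,
    Measure.restrict_apply hA, smul_eq_mul, ENNReal.toReal_mul, ENNReal.toReal_inv]
  gcongr
  rw [← ENNReal.ofReal_le_iff_le_toReal (ne_top_of_le_ne_top vt (measure_mono inter_subset_right)),
    ENNReal.ofReal_prod_of_nonneg fun i _ => sub_nonneg.2 (hab i), ← volume_box]
  exact measure_mono h

lemma vol_cube_pos : 0 < volume.real (cube d) :=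
  ENNReal.toReal_pos (Measure.measure_pos_of_nonempty_interior _ cube_interior).ne'
    cube_compact.measure_lt_top.ne

section
variable (i0 i1 : Fin d)

/-- the three atoms -/
noncomputable def atom (h : ℝ) : Fin 3 → E :=
  ![-EuclideanSpace.single i0 1, EuclideanSpace.single i0 1, EuclideanSpace.single i1 h]

/-- the label of the cell -/
noncomputable def lab (h : ℝ) (x : E) : Fin 3 :=
  if |x i0| < h * x i1 then 2 else if x i0 < 0 then 0 else 1

lemma measurable_lab (h : ℝ) : Measurable (lab i0 i1 h) := by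
  unfold lab
  refine Measurable.ite (measurableSet_lt (by fun_prop) (by fun_prop)) measurable_const
    (Measurable.ite (measurableSet_lt (by fun_prop) (by fun_prop)) measurable_const
      measurable_const)

lemma inner_atom0 (h : ℝ) (x : E) : ⟪x, atom i0 i1 h 0⟫ = -x i0 := by
  simp [atom, inner_neg_right, EuclideanSpace.inner_single_right]

lemma inner_atom1 (h : ℝ) (x : E) : ⟪x, atom i0 i1 h 1⟫ = x i0 := by
  simp [atom, EuclideanSpace.inner_single_right]

lemma inner_atom2 (h : ℝ) (x : E) : ⟪x, atom i0 i1 h 2⟫ = h * x i1 := by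
  simp [atom, EuclideanSpace.inner_single_right]

lemma inner_lab (h : ℝ) (x : E) : ⟪x, atom i0 i1 h (lab i0 i1 h x)⟫ = max |x i0| (h * x i1) := by
  unfold lab
  split_ifs with h1 h2
  · rw [inner_atom2, max_eq_right h1.le]
  · rw [inner_atom0, max_eq_left (not_lt.1 h1), abs_of_neg h2]
  · rw [inner_atom1, max_eq_left (not_lt.1 h1), abs_of_nonneg (not_lt.1 h2)]

lemma inner_le_lab (h : ℝ) (x : E) (i : Fin 3) :
    ⟪x, atom i0 i1 h i⟫ ≤ ⟪x, atom i0 i1 h (lab i0 i1 h x)⟫ := by
  rw [inner_lab]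
  fin_cases i
  · exact (inner_atom0 i0 i1 h x).le.trans ((neg_le_abs _).trans (le_max_left _ _))
  · exact (inner_atom1 i0 i1 h x).le.trans ((le_abs_self _).trans (le_max_left _ _))
  · exact (inner_atom2 i0 i1 h x).le.trans (le_max_right _ _)

lemma atom_mem {h : ℝ} (hh : |h| ≤ 1) (i : Fin 3) : atom i0 i1 h i ∈ cube d := by
  intro k
  fin_cases i <;> simp [atom] <;> split_ifs <;> simp [hh]

lemma atom_inj (hne : i0 ≠ i1) (h : ℝ) : Function.Injective (atom i0 i1 h) := by
  intro a b hab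
  have := congrArg (fun v : E => v i0) hab
  fin_cases a <;> fin_cases b <;> simp [atom, hne] at this ⊢ <;> norm_num at this

lemma map_lab {X : Type*} [MeasurableSpace X] (ρ : Measure E) [IsFiniteMeasure ρ] {ℓ : E → Fin 3}
    (hℓ : Measurable ℓ) (y : Fin 3 → X) :
    ρ.map (fun x => y (ℓ x)) = ∑ i, ENNReal.ofReal (ρ.real (ℓ ⁻¹' {i})) • Measure.dirac (y i) := by
  have my : Measurable fun x => y (ℓ x) := (measurable_of_countable y).comp hℓ
  conv_lhs => rw [← sum_restrict_fiber ρ hℓ]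
  rw [Measure.map_finset_sum' my.aemeasurable]
  refine Finset.sum_congr rfl fun i _ => ?_
  have : (fun x => y (ℓ x)) =ᵐ[ρ.restrict (ℓ ⁻¹' {i})] fun _ => y i := by
    filter_upwards [ae_restrict_mem (hℓ (measurableSet_singleton i))] with x hx
    rw [show ℓ x = i from hx]
  rw [Measure.map_congr this, Measure.map_const, Measure.restrict_apply_univ, ofReal_measureReal]

lemma opt_lab {h : ℝ} (hh : |h| ≤ 1) {μ : Measure E}
    (hμ : (uniformProbOn (cube d)).map (fun x => atom i0 i1 h (lab i0 i1 h x)) = μ) :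
    IsProbabilityOn (cube d) μ ∧
    IsOptimalMap (uniformProbOn (cube d)) μ (fun x => atom i0 i1 h (lab i0 i1 h x)) ∧
    ∀ T, IsOptimalMap (uniformProbOn (cube d)) μ T → ∀ᵐ x ∂uniformProbOn (cube d),
      ∃ i, T x = atom i0 i1 h i ∧ ⟪x, atom i0 i1 h i⟫ = max |x i0| (h * x i1) := by
  have S := setup_cube (d := d)
  have := S.prob
  have mT : Measurable fun x => atom i0 i1 h (lab i0 i1 h x) :=
    (measurable_of_countable _).comp (measurable_lab i0 i1 h)
  have hrange : ∀ᵐ y ∂μ, y ∈ range (atom i0 i1 h) := by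
    rw [← hμ]
    exact (ae_map_iff (p := fun y => y ∈ range (atom i0 i1 h)) mT.aemeasurable
      (finite_range _).measurableSet).2 (ae_of_all _ fun x => mem_range_self _)
  have hcube : ∀ᵐ y ∂μ, y ∈ cube d := hrange.mono (by
    rintro _ ⟨i, rfl⟩; exact atom_mem i0 i1 hh i)
  have hb : ∀ᵐ y ∂μ, ‖y‖ ≤ d + 1 := hcube.mono fun y hy => cube_norm hy
  have hle : ∀ U : E → E, Measurable U → (uniformProbOn (cube d)).map U = μ →
      ∀ᵐ x ∂uniformProbOn (cube d), U x ∈ range (atom i0 i1 h) := fun U hU hUμ => by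
    rw [← hUμ] at hrange
    exact ae_of_ae_map hU.aemeasurable hrange
  have hle2 : ∀ U : E → E, Measurable U → (uniformProbOn (cube d)).map U = μ →
      ∀ᵐ x ∂uniformProbOn (cube d), ⟪x, U x⟫ ≤ ⟪x, atom i0 i1 h (lab i0 i1 h x)⟫ :=
    fun U hU hUμ => by
      filter_upwards [hle U hU hUμ] with x ⟨i, hi⟩
      rw [← hi]; exact inner_le_lab i0 i1 h x i
  have iT := integrable_inner_map S mT (ae_norm_map hb mT hμ)
  refine ⟨⟨hμ ▸ Measure.isProbabilityMeasure_map mT.aemeasurable, hcube⟩,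
    ⟨mT, hμ, fun U hU hUμ => ?_⟩, fun T hT => ?_⟩
  · obtain ⟨a1, a2⟩ := cost_eq S hb mT hμ
    obtain ⟨b1, b2⟩ := cost_eq S hb hU hUμ
    rw [a1, b1, a2, b2]
    refine ENNReal.ofReal_le_ofReal ?_
    have := integral_mono_ae (integrable_inner_map S hU (ae_norm_map hb hU hUμ)) iT
      (hle2 U hU hUμ)
    linarith
  · have iU := integrable_inner_map S hT.1 (ae_norm_map hb hT.1 hT.2.1)
    have h1 := corr_le_of_opt S hb hT mT hμ
    have h2 := integral_mono_ae iU iT (hle2 T hT.1 hT.2.1)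
    have h3 := (integral_eq_iff_of_ae_le iU iT (hle2 T hT.1 hT.2.1)).1 (le_antisymm h2 h1)
    filter_upwards [h3, hle T hT.1 hT.2.1] with x hx ⟨i, hi⟩
    refine ⟨i, hi.symm, ?_⟩
    rw [hi, hx, inner_lab]

/-- reflection in one coordinate -/
noncomputable def refl1 : E ≃ₗᵢ[ℝ] E :=
  LinearIsometryEquiv.piLpCongrRight 2 fun i =>
    if i = i1 then LinearIsometryEquiv.neg ℝ else LinearIsometryEquiv.refl ℝ ℝ

lemma refl1_apply (x : E) (i : Fin d) : refl1 i1 x i = if i = i1 then -x i else x i := by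
  simp only [refl1, LinearIsometryEquiv.piLpCongrRight_apply]
  split_ifs <;> simp

lemma map_refl1 : (uniformProbOn (cube d)).map (refl1 i1) = uniformProbOn (cube d) := by
  have h1 : refl1 i1 ⁻¹' cube d = cube d := by
    ext x
    simp only [cube, mem_preimage, mem_ofPred_eq, refl1_apply]
    refine forall_congr' fun i => ?_
    split_ifs <;> simp
  have h2 := ((refl1 i1).measurePreserving.restrict_preimage cube_closed.measurableSet).map_eq
  rw [h1] at h2
  rw [uniformProbOn, Measure.map_smul, h2]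

lemma lab_refl1 (hne : i0 ≠ i1) (h : ℝ) (x : E) :
    lab i0 i1 h (refl1 i1 x) = lab i0 i1 (-h) x := by
  simp [lab, refl1_apply, hne]
end

lemma exists_small {α c C : ℝ} (hα : 1 / 3 < α) (hc : 0 < c) (hC : 0 ≤ C) :
    ∃ h, 0 < h ∧ h ≤ 1 ∧ ∀ m, c * h ≤ m → m ≤ 1 → C * (4 * h ^ 2 * m) ^ α < m := by
  have cont : ContinuousAt (fun h : ℝ => C * (4 / c ^ 2) ^ (1 / 3 : ℝ) *
      (4 * h ^ 2) ^ (α - 1 / 3)) 0 :=
    continuousAt_const.mul (ContinuousAt.rpow_const (by fun_prop) (Or.inr (by linarith)))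
  have h1 : ∀ᶠ h in 𝓝 (0 : ℝ), C * (4 / c ^ 2) ^ (1 / 3 : ℝ) * (4 * h ^ 2) ^ (α - 1 / 3) < 1 := by
    refine cont.eventually (gt_mem_nhds ?_)
    simp only [ne_eq, OfNat.ofNat_ne_zero, not_false_eq_true, zero_pow, mul_zero]
    rw [Real.zero_rpow (by linarith)]; simp
  obtain ⟨h, hh, hh2⟩ := ((h1.filter_mono (nhdsWithin_le_nhds (s := Ioi 0))).and
    (Ioc_mem_nhdsGT one_pos)).exists
  refine ⟨h, hh2.1, hh2.2, fun m hm1 hm2 => ?_⟩
  have h0 := hh2.1
  have m0 : 0 < m := lt_of_lt_of_le (by positivity) hm1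
  have e1 : (4 * h ^ 2 * m) ^ α =
      (4 * h ^ 2 * m) ^ (1 / 3 : ℝ) * (4 * h ^ 2 * m) ^ (α - 1 / 3) := by
    rw [← Real.rpow_add (by positivity)]; congr 1; ring
  have b1 : (4 * h ^ 2 * m) ^ (1 / 3 : ℝ) ≤ (4 / c ^ 2) ^ (1 / 3 : ℝ) * m := by
    have e2 : m = (m ^ 3) ^ (1 / 3 : ℝ) := by
      rw [← Real.rpow_natCast, ← Real.rpow_mul m0.le]; norm_num
    conv_rhs => rw [e2, ← Real.mul_rpow (by positivity) (by positivity)]
    refine Real.rpow_le_rpow (by positivity) ?_ (by norm_num)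
    have : (c * h) ^ 2 ≤ m ^ 2 := by gcongr
    rw [div_mul_eq_mul_div, le_div_iff₀ (by positivity)]
    nlinarith [mul_le_mul_of_nonneg_left this m0.le]
  have b2 : (4 * h ^ 2 * m) ^ (α - 1 / 3) ≤ (4 * h ^ 2) ^ (α - 1 / 3) :=
    Real.rpow_le_rpow (by positivity) (by nlinarith [sq_nonneg h]) (by linarith)
  calc C * (4 * h ^ 2 * m) ^ α
      ≤ C * ((4 / c ^ 2) ^ (1 / 3 : ℝ) * m * (4 * h ^ 2) ^ (α - 1 / 3)) := by rw [e1]; gcongr
    _ = (C * (4 / c ^ 2) ^ (1 / 3 : ℝ) * (4 * h ^ 2) ^ (α - 1 / 3)) * m := by ring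
    _ < 1 * m := by gcongr
    _ = m := one_mul m

theorem sharp (hd : 2 ≤ d) (α : ℝ) (hα : 1 / 3 < α) (C : ℝ≥0) :
    ∃ μ ν : Measure E, IsProbabilityOn (cube d) μ ∧ IsProbabilityOn (cube d) ν ∧
      IsThreeAtomic μ ∧ IsThreeAtomic ν ∧
      (∃ T, IsOptimalMap (uniformProbOn (cube d)) μ T) ∧
      (∃ T, IsOptimalMap (uniformProbOn (cube d)) ν T) ∧
      ∀ Tμ Tν : E → E, IsOptimalMap (uniformProbOn (cube d)) μ Tμ →
        IsOptimalMap (uniformProbOn (cube d)) ν Tν →
        ∃ π : Measure (E × E), IsPairCoupling μ ν π ∧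
          (C : ℝ≥0∞) * quadCost π ^ α < ∫⁻ x, ‖Tμ x - Tν x‖ₑ ^ 2 ∂(uniformProbOn (cube d)) := by
  set i0 : Fin d := ⟨0, by omega⟩ with hi0
  set i1 : Fin d := ⟨1, by omega⟩ with hi1
  have hne : i0 ≠ i1 := by simp [hi0, hi1]
  have S := setup_cube (d := d)
  have := S.prob
  set ρ := uniformProbOn (cube d) with hρ
  have V0 := vol_cube_pos (d := d)
  obtain ⟨h, h0, h1, hsm⟩ := exists_small hα
    (c := (volume.real (cube d))⁻¹ * (1 / 2) ^ d) (by positivity) C.2
  have ha : |h| ≤ 1 := by rwa [abs_of_pos h0]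
  have ha' : |-h| ≤ 1 := by rwa [abs_neg]
  have mℓ := measurable_lab i0 i1 h
  have mf : ∀ i, MeasurableSet (lab i0 i1 h ⁻¹' {i}) := fun i => mℓ (measurableSet_singleton i)
  set m : Fin 3 → ℝ := fun i => ρ.real (lab i0 i1 h ⁻¹' {i}) with hm
  have m2 : (volume.real (cube d))⁻¹ * (1 / 2) ^ d * h ≤ m 2 := by
    have := unif_box (mf 2) (fun i => if i = i0 then 0 else 1 / 2)
      (fun i => if i = i0 then h / 2 else 1) (fun i => by split_ifs <;> linarith)
      (fun x hx => by
        have a0 := hx i0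
        have a1 := hx i1
        simp only [if_true, if_neg hne.symm] at a0 a1
        refine ⟨?_, fun i => ?_⟩
        · have : |x i0| < h * x i1 := by rw [abs_of_pos a0.1]; nlinarith [a0.2, a1.1]
          simp [lab, this]
        · have := hx i
          rw [abs_le]
          split_ifs at this <;> constructor <;> linarith [this.1, this.2])
    refine le_trans (le_of_eq ?_) this
    have e : ∀ i : Fin d, ((if i = i0 then h / 2 else 1) - if i = i0 then 0 else 1 / 2) =
        (1 / 2 : ℝ) * if i = i0 then h else 1 := fun i => by split_ifs <;> ring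
    simp only [e, Finset.prod_mul_distrib, Finset.prod_const, Finset.card_univ, Fintype.card_fin,
      Finset.prod_ite_eq', Finset.mem_univ, if_true, mul_assoc]
  have mpos : ∀ i, 0 < m i := by
    intro i
    fin_cases i
    · refine lt_of_lt_of_le ?_ (unif_box (mf 0) (fun _ => -1) (fun _ => 0) (fun i => by norm_num)
        fun x hx => ⟨?_, fun i => ?_⟩)
      · simpa using V0
      · have : ¬ |x i0| < h * x i1 := not_lt.2
          ((mul_neg_of_pos_of_neg h0 (hx i1).2).le.trans (abs_nonneg _))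
        simp [lab, this, (hx i0).2]
      · rw [abs_le]; constructor <;> linarith [(hx i).1, (hx i).2]
    · refine lt_of_lt_of_le ?_ (unif_box (mf 1) (fun i => if i = i0 then 0 else -1)
        (fun i => if i = i0 then 1 else 0) (fun i => by split_ifs <;> norm_num)
        fun x hx => ⟨?_, fun i => ?_⟩)
      · exact mul_pos (inv_pos.2 V0) (Finset.prod_pos fun i _ => by split_ifs <;> norm_num)
      · have a0 := hx i0
        have a1 := hx i1
        simp only [if_true, if_neg hne.symm] at a0 a1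
        have : ¬ |x i0| < h * x i1 := not_lt.2
          ((mul_neg_of_pos_of_neg h0 a1.2).le.trans (abs_nonneg _))
        simp [lab, this, a0.1.le]
      · have := hx i
        rw [abs_le]
        split_ifs at this <;> constructor <;> linarith [this.1, this.2]
    · exact lt_of_lt_of_le (by positivity) m2
  have hν : ρ.map (fun x => atom i0 i1 (-h) (lab i0 i1 (-h) x)) =
      ρ.map (fun x => atom i0 i1 (-h) (lab i0 i1 h x)) := by
    conv_rhs => rw [hρ, ← map_refl1 i1]
    have mm : Measurable fun x => atom i0 i1 (-h) (lab i0 i1 h x) :=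
      (measurable_of_countable _).comp mℓ
    rw [Measure.map_map mm (refl1 i1).continuous.measurable]
    congr 1; ext1 x
    simp only [Function.comp_apply, lab_refl1 i0 i1 hne]
  obtain ⟨p1, o1, u1⟩ := opt_lab i0 i1 ha rfl
  obtain ⟨p2, o2, u2⟩ := opt_lab i0 i1 ha' hν
  refine ⟨_, _, p1, p2, ⟨_, atom_inj i0 i1 hne h, m, mpos, map_lab ρ mℓ _⟩,
    ⟨_, atom_inj i0 i1 hne (-h), m, mpos, map_lab ρ mℓ _⟩, ⟨_, o1⟩, ⟨_, o2⟩,
    fun Tμ Tν hTμ hTν => ?_⟩
  have mP : Measurable fun x => (atom i0 i1 h (lab i0 i1 h x), atom i0 i1 (-h) (lab i0 i1 h x)) :=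
    (measurable_of_countable fun i => (atom i0 i1 h i, atom i0 i1 (-h) i)).comp mℓ
  refine ⟨ρ.map fun x => (atom i0 i1 h (lab i0 i1 h x), atom i0 i1 (-h) (lab i0 i1 h x)),
    ⟨?_, ?_⟩, ?_⟩
  · rw [Measure.map_map measurable_fst mP]; rfl
  · rw [Measure.map_map measurable_snd mP]; rfl
  have hcost : quadCost (ρ.map fun x => (atom i0 i1 h (lab i0 i1 h x),
      atom i0 i1 (-h) (lab i0 i1 h x))) = ENNReal.ofReal (4 * h ^ 2 * m 2) := by
    rw [map_lab ρ mℓ fun i => (atom i0 i1 h i, atom i0 i1 (-h) i), quadCost,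
      lintegral_finsetSum_measure]
    simp only [lintegral_smul_measure, lintegral_dirac, Fin.sum_univ_three, smul_eq_mul]
    have e0 : atom i0 i1 h 0 - atom i0 i1 (-h) 0 = 0 := by simp [atom]
    have e1 : atom i0 i1 h 1 - atom i0 i1 (-h) 1 = 0 := by simp [atom]
    have e2 : ‖atom i0 i1 h 2 - atom i0 i1 (-h) 2‖ₑ ^ 2 = ENNReal.ofReal (4 * h ^ 2) := by
      have : atom i0 i1 h 2 - atom i0 i1 (-h) 2 = EuclideanSpace.single i1 (2 * h) := by
        ext k; simp [atom]; split_ifs <;> ring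
      rw [this, ← ofReal_norm, ← ENNReal.ofReal_pow (norm_nonneg _)]
      congr 1
      simp only [PiLp.norm_single, Real.norm_eq_abs, sq_abs]; ring
    rw [e0, e1, e2, mul_comm (4 * h ^ 2), ENNReal.ofReal_mul (mpos 2).le]
    simp [hm]
  have hlow : ENNReal.ofReal (m 2) ≤ ∫⁻ x, ‖Tμ x - Tν x‖ₑ ^ 2 ∂ρ := by
    rw [hm, ofReal_measureReal, ← lintegral_indicator_one (mf 2)]
    refine lintegral_mono_ae ?_
    filter_upwards [u1 Tμ hTμ, u2 Tν hTν] with x ⟨i, hi, hi'⟩ ⟨k, hk, hk'⟩
    by_cases hx : x ∈ lab i0 i1 h ⁻¹' {2}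
    · rw [indicator_of_mem hx]
      have hx' : |x i0| < h * x i1 := by
        by_contra hc
        simp only [mem_preimage, lab, hc, if_false, mem_singleton_iff] at hx
        split_ifs at hx <;> simp at hx
      rw [max_eq_right hx'.le] at hi'
      have hi2 : i = 2 := by
        fin_cases i
        · have := inner_atom0 i0 i1 h x
          simp only [Fin.zero_eta] at hi'
          linarith [neg_le_abs (x i0)]
        · have := inner_atom1 i0 i1 h x
          simp only [Fin.mk_one] at hi'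
          linarith [le_abs_self (x i0)]
        · rfl
      have hco : |(Tμ x - Tν x) i0| = 1 := by
        rw [hi, hk, hi2]
        fin_cases k
        · simp [atom, hne]
        · simp [atom, hne]
        · exfalso
          have := inner_atom2 i0 i1 (-h) x
          simp only [Fin.reduceFinMk] at hk'
          linarith [le_max_left |x i0| (-h * x i1), abs_nonneg (x i0)]
      have hn : 1 ≤ ‖Tμ x - Tν x‖ := hco ▸ PiLp.norm_apply_le (Tμ x - Tν x) i0
      rw [Pi.one_apply, ← ofReal_norm, ← ENNReal.ofReal_pow (norm_nonneg _), ENNReal.one_le_ofReal]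
      exact one_le_pow₀ hn
    · rw [indicator_of_notMem hx]; exact zero_le
  refine lt_of_lt_of_le ?_ hlow
  rw [hcost, ENNReal.ofReal_rpow_of_nonneg (by have := mpos 2; positivity) (by linarith),
    ← ENNReal.ofReal_coe_nnreal, ← ENNReal.ofReal_mul C.coe_nonneg, ENNReal.ofReal_lt_ofReal_iff (mpos 2)]
  exact hsm _ m2 measureReal_le_one

end Crest.Agent.R82
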