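import Crest.Agent.R82.Setup

set_option autoImplicit false
set_option linter.unusedSectionVars false

namespace Crest.Agent.R82

open MeasureTheory Set Filter Topology ProbabilityTheory
open scoped ENNReal unitInterval

lemma measure_cdf_le (μ : Measure ℝ) [IsProbabilityMeasure μ] [NullSingletonClass μ] {t : ℝ}
    (ht0 : 0 ≤ t) (ht1 : t ≤ 1) : μ {x | cdf μ x ≤ t} = ENNReal.ofReal t := by
  set A := {x | cdf μ x ≤ t} with hA
  by_cases hu : ∀ x, x ∈ A
  · have : 1 ≤ t := le_of_tendsto' (tendsto_cdf_atTop μ) hu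
    rw [eq_univ_of_forall hu, le_antisymm ht1 this]; simp
  rcases A.eq_empty_or_nonempty with he | hne
  · have : t ≤ 0 := ge_of_tendsto' (tendsto_cdf_atBot μ) fun x => by
      have : x ∉ A := by simp [he]
      exact (not_le.1 this).le
    rw [he, le_antisymm this ht0]; simp
  push Not at hu
  obtain ⟨b, hb⟩ := hu
  have hbdd : BddAbove A := ⟨b, fun x hx => by
    by_contra h
    exact hb (((monotone_cdf μ) (not_le.1 h).le).trans hx)⟩
  set a := sSup A with ha
  have h1 : Iio a ⊆ A := fun x hx => by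
    obtain ⟨y, hy, hxy⟩ := exists_lt_of_lt_csSup hne hx
    exact ((monotone_cdf μ) hxy.le).trans hy
  have h2 : A ⊆ Iic a := fun x hx => le_csSup hbdd hx
  have h3 : μ (Iio a) = μ (Iic a) := measure_congr Iio_ae_eq_Iic
  have h4 : t ≤ cdf μ a := by
    have hc : ContinuousWithinAt (cdf μ) (Ioi a) a :=
      ((cdf μ).right_continuous a).mono Ioi_subset_Ici_self
    refine ge_of_tendsto hc (eventually_nhdsWithin_of_forall fun x hx => ?_)
    have : x ∉ A := fun h => absurd (mem_Iic.1 (h2 h)) (not_le.2 hx)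
    exact (not_le.1 this).le
  have h5 : μ (Iio a) ≤ ENNReal.ofReal t := by
    conv_lhs => rw [← measure_cdf μ]
    rw [StieltjesFunction.measure_Iio _ (tendsto_cdf_atBot μ), sub_zero]
    refine ENNReal.ofReal_le_ofReal (le_of_tendsto ((monotone_cdf μ).tendsto_leftLim a)
      (eventually_nhdsWithin_of_forall fun x hx => h1 hx))
  apply le_antisymm
  · exact (measure_mono h2).trans (h3 ▸ h5)
  · refine le_trans ?_ (measure_mono h1)
    rw [h3, ← ofReal_cdf]
    exact ENNReal.ofReal_le_ofReal h4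

lemma exists_map_unif (μ : Measure ℝ) [IsProbabilityMeasure μ] [NullSingletonClass μ] :
    ∃ F : ℝ → I, Measurable F ∧ μ.map F = volume := by
  have hm : Measurable fun x => (⟨cdf μ x, cdf_nonneg μ x, cdf_le_one μ x⟩ : I) :=
    (monotone_cdf μ).measurable.subtype_mk
  refine ⟨_, hm, Measure.ext_of_Iic _ _ fun t => ?_⟩
  rw [Measure.map_apply hm measurableSet_Iic, unitInterval.volume_Iic,
    ← measure_cdf_le μ t.2.1 t.2.2]
  rfl

lemma volume_hyperplane {d : ℕ} (j : Fin d) (a : ℝ) :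
    volume {x : EuclideanSpace ℝ (Fin d) | x j = a} = 0 := by
  have := (PiLp.volume_preserving_ofLp (Fin d)).measure_preimage
    (s := {f : Fin d → ℝ | f j = a}) (measurableSet_eq_fun (measurable_pi_apply j)
      measurable_const).nullMeasurableSet
  rw [volume_pi, Measure.pi_hyperplane] at this
  exact this

lemma exists_push {d : ℕ} (j : Fin d) (ϑ ν : Measure (EuclideanSpace ℝ (Fin d)))
    [IsFiniteMeasure ϑ] (hϑ : ϑ ≪ volume) (h : ν univ = ϑ univ) :
    ∃ S : EuclideanSpace ℝ (Fin d) → EuclideanSpace ℝ (Fin d), Measurable S ∧ ϑ.map S = ν := by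
  rcases eq_or_ne (ϑ univ) 0 with h0 | h0
  · refine ⟨id, measurable_id, ?_⟩
    rw [Measure.measure_univ_eq_zero.1 h0, Measure.measure_univ_eq_zero.1 (h.trans h0)]; simp
  have ht : ϑ univ ≠ ⊤ := measure_ne_top _ _
  have hp : Measurable fun x : EuclideanSpace ℝ (Fin d) => x j := by fun_prop
  set τ : Measure ℝ := ((ϑ univ)⁻¹ • ϑ).map fun x => x j with hτ
  have : IsProbabilityMeasure ((ϑ univ)⁻¹ • ϑ) := ⟨by simp [ENNReal.inv_mul_cancel h0 ht]⟩
  have : IsProbabilityMeasure τ := Measure.isProbabilityMeasure_map hp.aemeasurable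
  have : NullSingletonClass τ := ⟨fun a => by
    have h1 : ϑ ((fun x => x j) ⁻¹' {a}) = 0 := hϑ (volume_hyperplane j a)
    rw [hτ, Measure.map_apply hp (measurableSet_singleton a), Measure.smul_apply, h1]; simp⟩
  have : IsProbabilityMeasure ((ϑ univ)⁻¹ • ν) := ⟨by simp [h, ENNReal.inv_mul_cancel h0 ht]⟩
  obtain ⟨F, hF, hFτ⟩ := exists_map_unif τ
  obtain ⟨f, hf, hfν⟩ := Measure.exists_measurable_map_eq ((ϑ univ)⁻¹ • ν)
  refine ⟨f ∘ F ∘ fun x => x j, hf.comp (hF.comp hp), ?_⟩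
  have h1 : ((ϑ univ)⁻¹ • ϑ).map (f ∘ F ∘ fun x => x j) = (ϑ univ)⁻¹ • ν := by
    rw [← Measure.map_map hf (hF.comp hp), ← Measure.map_map hF hp, ← hτ, hFτ, hfν]
  rw [Measure.map_smul] at h1
  have h2 := congrArg (fun m => ϑ univ • m) h1
  simpa only [smul_smul, ENNReal.mul_inv_cancel h0 ht, one_smul] using h2

lemma exists_partition {X : Type*} [PseudoMetricSpace X] [MeasurableSpace X]
    [OpensMeasurableSpace X] {S : Set X} (hS : IsCompact S) (hne : S.Nonempty) {η : ℝ}
    (hη : 0 < η) : ∃ (N : ℕ) (c : Fin (N + 1) → X) (ℓ : X → Fin (N + 1)), Measurable ℓ ∧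
      (∀ k, c k ∈ S) ∧ ∀ x ∈ S, dist x (c (ℓ x)) < η := by
  obtain ⟨t, htS, htf, hcov⟩ := hS.finite_cover_balls hη
  obtain ⟨n, f, -, rfl⟩ := htf.fin_param
  obtain ⟨x0, hx0⟩ := hne
  let e : ℕ → X := fun k => if h : k < n then f ⟨k, h⟩ else x0
  refine ⟨n, fun k => e k, fun x => ⟨SimpleFunc.nearestPtInd e n x,
    Nat.lt_succ_of_le (SimpleFunc.nearestPtInd_le e n x)⟩, ?_, fun k => ?_, fun x hx => ?_⟩
  · refine measurable_to_countable' fun k => ?_
    have := (SimpleFunc.nearestPtInd e n).measurableSet_fiber (k : ℕ)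
    convert this using 1
    ext x; simp [Fin.ext_iff]
  · simp only [e]
    split_ifs
    · exact htS (mem_range_self _)
    · exact hx0
  · obtain ⟨_, ⟨k, rfl⟩, hk⟩ := mem_iUnion₂.1 (hcov hx)
    have h1 := SimpleFunc.edist_nearestPt_le e x (k := k) (N := n) k.2.le
    have h2 : e k = f k := by simp [e]
    rw [h2, edist_dist, edist_dist, ENNReal.ofReal_le_ofReal_iff dist_nonneg] at h1
    rw [dist_comm]
    refine lt_of_le_of_lt h1 ?_
    rw [dist_comm]; exact hk

lemma sum_restrict_fiber {X J : Type*} [MeasurableSpace X] [Fintype J] [MeasurableSpace J]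
    [MeasurableSingletonClass J] (μ : Measure X) {ℓ : X → J} (hℓ : Measurable ℓ) :
    ∑ k, μ.restrict (ℓ ⁻¹' {k}) = μ := by
  rw [← Measure.sum_fintype, ← Measure.restrict_iUnion
    (fun a b hab => (disjoint_singleton.2 hab).preimage ℓ)
    (fun k => hℓ (measurableSet_singleton k))]
  have : ⋃ k, ℓ ⁻¹' {k} = univ := eq_univ_of_forall fun x => mem_iUnion.2 ⟨ℓ x, rfl⟩
  rw [this, Measure.restrict_univ]

end Crest.Agent.R82
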